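import Vale.Agent.P139.N.Flux

/-!
P139 N/Pair: two more monotone quantities (`p = Λ y`, `σ = re ν`, `Ω = im ν`).
`n_mono`: `monotoneOn_of_deriv_nonneg` (or `monotoneOn_of_hasDerivWithinAt_nonneg`), `ge_of_tendsto`.
`n_H`: `|p|²/2 - ℓ²|y|²/2 + re (conj ν * (p * conj y))` has derivative `σ (|p|² + ℓ²|y|²) / X`
and tends to `0`; use `n_p_eq`, `n_pc_eq` and divide by `|y|²`.
`n_F`: `ψ = re (p * conj y)` has derivative `(|p|² + ℓ²|y|²)/Y + im (p * conj y) + Ω |y|²`. With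
`κ² = ℓ² + X (Ω - X/2)` the function `G Y = ψ Y - (Y - X) * nphi Y + κ |y Y|²` has derivative
`(|p|² + (ℓ² + Y (Ω + (σ - 1/2)(Y - X) - Y/2)) |y|² + 2 κ ψ) / Y ≥ |p + κ y|² / Y ≥ 0` on `[X, ∞)`,
and `G ≤ ψ + κ |y|² → 0` (`n_phi_nonneg`).
-/

noncomputable section

open MeasureTheory Filter Topology Set Complex
open scoped ComplexConjugate ContDiff

namespace Vale.Agent.P139

variable {ν : ℂ} {ℓ X : ℝ}

theorem n_mono {G G' g : ℝ → ℝ} (hd : ∀ Y, X ≤ Y → HasDerivAt G (G' Y) Y)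
    (h0 : ∀ Y, X ≤ Y → 0 ≤ G' Y) (hg : ∀ Y, X ≤ Y → G Y ≤ g Y) (hl : Tendsto g atTop (𝓝 0)) :
    G X ≤ 0 := by
  have hm : MonotoneOn G (Ici X) := monotoneOn_of_deriv_nonneg (convex_Ici X)
    (fun Y hY => (hd Y hY).continuousAt.continuousWithinAt)
    (fun Y hY => (hd Y (interior_subset hY)).differentiableAt.differentiableWithinAt)
    fun Y hY => by
      rw [(hd Y (interior_subset hY)).deriv]
      exact h0 Y (interior_subset hY)
  exact ge_of_tendsto hl ((eventually_ge_atTop X).mono fun Y hY =>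
    (hm self_mem_Ici hY hY).trans (hg Y hY))

theorem n_pc_deriv (h : 0 < ℓ + ν.re) (hX : 0 < X) :
    HasDerivAt (fun Y => Lam (yF ν ℓ) Y * conj (yF ν ℓ Y))
      (((ℓ ^ 2 * yF ν ℓ X - I * X * (Lam (yF ν ℓ) X + ν * yF ν ℓ X)) * conj (yF ν ℓ X) +
        Lam (yF ν ℓ) X * conj (Lam (yF ν ℓ) X)) / X) X := by
  refine ((n_dp h hX).mul (n_d_conj (n_dy h hX))).congr_deriv ?_
  rw [map_div₀, conj_ofReal]
  ring

theorem n_H (hl : 0 ≤ ℓ) (h : 1 / 2 < ν.re) (hX : 0 < X) :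
    ‖NF ν ℓ X‖ ^ 2 + 2 * (conj ν * NF ν ℓ X).re ≤ ℓ ^ 2 := by
  have hl0 : 0 < ℓ + ν.re := by linarith
  have h0 : 0 < ν.re := by linarith
  have h1 := n_mono (X := X) (G := fun Y => ‖Lam (yF ν ℓ) Y‖ ^ 2 - ℓ ^ 2 * ‖yF ν ℓ Y‖ ^ 2 +
      2 * (conj ν * (Lam (yF ν ℓ) Y * conj (yF ν ℓ Y))).re)
    (G' := fun Y => 2 * ν.re * (‖Lam (yF ν ℓ) Y‖ ^ 2 + ℓ ^ 2 * ‖yF ν ℓ Y‖ ^ 2) / Y)
    (fun Y hY => ?_) (fun Y hY => by have := hX.trans_le hY; positivity) (fun _ _ => le_rfl) ?_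
  · simp only [n_pc_eq hl h hX] at h1
    rw [n_p_eq hl h hX, norm_mul, ← mul_assoc, re_mul_ofReal] at h1
    refine le_of_mul_le_mul_right ?_ (pow_pos (norm_pos_iff.2 (n_ne hl h hX)) 2)
    linarith
  · have hY0 := hX.trans_le hY
    refine (((n_d_sq (n_dp hl0 hY0)).sub ((n_sq_deriv hl0 hY0).const_mul _)).add
      ((n_d_re ((n_pc_deriv hl0 hY0).const_mul _)).const_mul 2)).congr_deriv ?_
    rw [div_mul_eq_mul_div, ← mul_div_assoc (conj ν), div_ofReal_re, div_ofReal_re,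
      ← normSq_eq_norm_sq, ← normSq_eq_norm_sq, ← ofReal_pow]
    simp only [normSq_apply, add_im, mul_im, mul_re, sub_re, sub_im, add_re, ofReal_re, ofReal_im,
      conj_re, conj_im, I_re, I_im]
    ring
  · have h2 := ((n_t_sq (n_p0 hl h0)).sub ((n_t_sq (n_y0 hl h0)).const_mul (ℓ ^ 2))).add
      (((continuous_re.tendsto _).comp ((n_t_pc hl h0).const_mul (conj ν))).const_mul 2)
    simp only [mul_zero, zero_re, sub_zero, add_zero] at h2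
    exact h2

theorem n_F (hl : 0 ≤ ℓ) (h : 1 ≤ ν.re) (hX : 0 < X) (h2 : X / 2 ≤ ν.im) :
    (NF ν ℓ X).re ≤ -√(ℓ ^ 2 + X * (ν.im - X / 2)) := by
  have hl0 : 0 < ℓ + ν.re := by linarith
  have h0 : 0 < ν.re := by linarith
  have h' : 1 / 2 < ν.re := by linarith
  have hk : 0 ≤ ℓ ^ 2 + X * (ν.im - X / 2) := add_nonneg (sq_nonneg _)
    (mul_nonneg hX.le (sub_nonneg.2 h2))
  have hκ := Real.sq_sqrt hk
  have hκ0 := Real.sqrt_nonneg (ℓ ^ 2 + X * (ν.im - X / 2))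
  set κ := √(ℓ ^ 2 + X * (ν.im - X / 2))
  have h1 := n_mono (X := X) (G := fun Y => (Lam (yF ν ℓ) Y * conj (yF ν ℓ Y)).re -
      (Y - X) * nphi ν ℓ Y + κ * ‖yF ν ℓ Y‖ ^ 2)
    (G' := fun Y => (‖Lam (yF ν ℓ) Y + κ * yF ν ℓ Y‖ ^ 2 + (ℓ ^ 2 + Y * (ν.im +
      (ν.re - 1 / 2) * (Y - X) - Y / 2) - κ ^ 2) * ‖yF ν ℓ Y‖ ^ 2) / Y)
    (g := fun Y => (Lam (yF ν ℓ) Y * conj (yF ν ℓ Y)).re + κ * ‖yF ν ℓ Y‖ ^ 2)
    (fun Y hY => ?_) (fun Y hY => ?_) (fun Y hY => ?_) ?_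
  · simp only [n_pc_eq hl h' hX, re_mul_ofReal, sub_self, zero_mul, sub_zero] at h1
    refine le_of_mul_le_mul_right ?_ (pow_pos (norm_pos_iff.2 (n_ne hl h' hX)) 2)
    linarith
  · have hY0 := hX.trans_le hY
    refine (((n_d_re (n_pc_deriv hl0 hY0)).sub (((hasDerivAt_id Y).sub_const X).mul
      (n_phi_deriv hl0 hY0))).add ((n_sq_deriv hl0 hY0).const_mul κ)).congr_deriv ?_
    have := hY0.ne'
    rw [div_ofReal_re, nphi, ← normSq_eq_norm_sq, ← normSq_eq_norm_sq, ← ofReal_pow]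
    simp only [normSq_apply, add_im, mul_im, mul_re, sub_re, sub_im, add_re, ofReal_re, ofReal_im,
      conj_re, conj_im, I_re, I_im, id]
    field_simp
    ring
  · have hY0 := hX.trans_le hY
    refine div_nonneg (add_nonneg (sq_nonneg _) (mul_nonneg ?_ (sq_nonneg _))) hY0.le
    rw [hκ]
    nlinarith [mul_nonneg (sub_nonneg.2 hY) (sub_nonneg.2 h2),
      mul_nonneg hY0.le (mul_nonneg (sub_nonneg.2 h) (sub_nonneg.2 hY))]
  · have := mul_nonneg (sub_nonneg.2 hY) (n_phi_nonneg hl h' (hX.trans_le hY))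
    linarith
  · have h2 := ((continuous_re.tendsto _).comp (n_t_pc hl h0)).add
      ((n_t_sq (n_y0 hl h0)).const_mul κ)
    simp only [mul_zero, zero_re, add_zero] at h2
    exact h2

end Vale.Agent.P139
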