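import Vale.Agent.P139.N.Green
import Vale.Agent.P139.N.Pair

/-!
P139 N/RowLip: continuity and Lipschitz bounds of the row.
`n_NF_cont`: `NF = (-ν y - I (ℓ - ν) yF (ν + 1)) / y` (`n_up`, `n_ne`, `n_continuous`,
`ContinuousOn.congr`). `n_row_cont`: `n_row_eq`, `nrow` is a polynomial map (unfold, `fun_prop`).
`n_row_lip`: `n_H` gives `‖NF (ν + 4)‖ ≤ M = 2 (R + 4) + ℓ`, `n_lip` with `σ = 1` gives
`‖N - N'‖ ≤ 2 (M + 2) ‖ν - ν'‖`; the map `(ν, N, X) ↦ nrow ν ℓ X N` on `ℂ × ℂ × ℝ` is `ContDiff ℝ 1`, so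
Lipschitz on a closed ball (`Convex.norm_image_sub_le_of_norm_fderiv_le`,
`IsCompact.exists_bound_of_continuousOn`).
-/

noncomputable section

open MeasureTheory Filter Topology Set Complex
open scoped ComplexConjugate ContDiff

namespace Vale.Agent.P139

variable {ℓ : ℝ}

theorem n_NF_cont (hl : 0 ≤ ℓ) : ContinuousOn (fun p : ℂ × ℝ => NF p.1 ℓ p.2)
    {p | 1 / 2 < p.1.re ∧ 0 < p.2} := by
  have h1 : ContinuousOn (fun p : ℂ × ℝ => yF p.1 ℓ p.2) {p | 1 / 2 < p.1.re ∧ 0 < p.2} :=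
    n_continuous.mono fun p hp => ⟨by linarith [hp.1], hp.2⟩
  have h2 : ContinuousOn (fun p : ℂ × ℝ => yF (p.1 + 1) ℓ p.2) {p | 1 / 2 < p.1.re ∧ 0 < p.2} :=
    n_continuous.comp (f := fun p : ℂ × ℝ => (p.1 + 1, p.2)) (by fun_prop)
      fun p hp => ⟨by simp; linarith [hp.1], hp.2⟩
  refine ((((by fun_prop : ContinuousOn (fun p : ℂ × ℝ => -I * (ℓ - p.1)) _).mul h2).sub
    (continuousOn_fst.mul h1)).div h1 fun p hp => n_ne hl hp.1 hp.2).congr fun p hp => ?_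
  simp only [NF, Pi.div_apply, Pi.sub_apply, Pi.mul_apply]
  rw [eq_sub_of_add_eq (n_up (by linarith [hp.1]) hp.2)]

theorem n_nrow_smooth (ℓ : ℝ) : ContDiff ℝ 1 fun p : ℂ × ℂ × ℝ => nrow p.1 ℓ p.2.2 p.2.1 := by
  have h : ContDiff ℝ 1 fun p : ℂ × ℂ × ℝ => (p.2.2 : ℂ) := ofRealCLM.contDiff.comp (by fun_prop)
  unfold nrow rowStep
  fun_prop

theorem n_row_cont (hl : 0 ≤ ℓ) : ContinuousOn (fun p : ℂ × ℝ => row p.1 ℓ p.2)
    {p | -7 / 2 < p.1.re ∧ 0 < p.2} := by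
  have h1 : ContinuousOn (fun p : ℂ × ℝ => NF (p.1 + 4) ℓ p.2) {p | -7 / 2 < p.1.re ∧ 0 < p.2} :=
    (n_NF_cont hl).comp (f := fun p : ℂ × ℝ => (p.1 + 4, p.2)) (by fun_prop)
      fun p hp => ⟨by simp; linarith [hp.1], hp.2⟩
  have h2 := (n_nrow_smooth ℓ).continuous.comp_continuousOn
    (continuousOn_fst.prodMk (h1.prodMk continuousOn_snd))
  simpa only [Function.comp_def, ← n_row_eq] using h2

theorem n_NF_bd {ν : ℂ} {X : ℝ} (hl : 0 ≤ ℓ) (h : 1 / 2 < ν.re) (hX : 0 < X) :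
    ‖NF ν ℓ X‖ ≤ 2 * ‖ν‖ + ℓ := by
  have h1 := n_H hl h hX
  have h2 := (neg_le_abs _).trans (abs_re_le_norm (conj ν * NF ν ℓ X))
  rw [norm_mul, norm_conj] at h2
  by_contra h3
  push Not at h3
  nlinarith [norm_nonneg ν]

theorem n_row_lip (hl : 0 ≤ ℓ) (R : ℝ) : ∃ C, ∀ ν ν' : ℂ, -3 ≤ ν.re → -3 ≤ ν'.re → ‖ν‖ ≤ R →
    ‖ν'‖ ≤ R → ∀ X ∈ Icc (2 : ℝ) 4, ‖row ν ℓ X - row ν' ℓ X‖ ≤ C * ‖ν - ν'‖ := by
  set M : ℝ := 2 * (|R| + 4) + ℓ with hM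
  have hM0 : 0 ≤ M := by positivity
  obtain ⟨C, hC⟩ := (isCompact_closedBall (0 : ℂ × ℂ × ℝ) M).exists_bound_of_continuousOn
    ((n_nrow_smooth ℓ).continuous_fderiv one_ne_zero).continuousOn
  refine ⟨C * (2 * (M + 2)), fun ν ν' h h' hR hR' X hX => ?_⟩
  have hX0 : 0 < X := by linarith [hX.1]
  have key : ∀ ν : ℂ, -3 ≤ ν.re → ‖ν‖ ≤ R → 1 ≤ (ν + 4).re ∧ ‖NF (ν + 4) ℓ X‖ ≤ M ∧
      (ν, NF (ν + 4) ℓ X, X) ∈ Metric.closedBall (0 : ℂ × ℂ × ℝ) M := fun ν h hR => by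
    have h1 : 1 ≤ (ν + 4).re := by simp; linarith
    have h2 : ‖ν + 4‖ ≤ |R| + 4 := (norm_add_le _ _).trans
      (add_le_add (hR.trans (le_abs_self R)) (by simp))
    have h3 : ‖NF (ν + 4) ℓ X‖ ≤ M := (n_NF_bd hl (by linarith) hX0).trans (by linarith)
    refine ⟨h1, h3, mem_closedBall_zero_iff.2 (max_le ?_ (max_le h3 ?_))⟩
    · linarith [le_abs_self R, abs_nonneg R]
    · rw [Real.norm_of_nonneg hX0.le]
      linarith [hX.2, abs_nonneg R]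
  obtain ⟨a1, a2, a3⟩ := key ν h hR
  obtain ⟨b1, b2, b3⟩ := key ν' h' hR'
  have h1 := (convex_closedBall _ _).norm_image_sub_le_of_norm_fderiv_le
    (fun p _ => (n_nrow_smooth ℓ).differentiable one_ne_zero p) hC b3 a3
  refine h1.trans ?_
  rw [mul_assoc]
  refine mul_le_mul_of_nonneg_left (max_le ?_ (max_le ?_ ?_))
    ((norm_nonneg _).trans (hC 0 (Metric.mem_closedBall_self hM0)))
  · exact le_mul_of_one_le_left (norm_nonneg _) (by linarith)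
  · refine (n_lip hl (by norm_num) a1 b1 hX0).trans ?_
    rw [add_sub_add_right_eq_sub, div_le_iff₀ (by norm_num), mul_comm]
    have h2 : √(((NF (ν + 4) ℓ X).im + X / 2) * ((NF (ν' + 4) ℓ X).im + X / 2)) ≤ M + 2 := by
      refine Real.sqrt_le_iff.2 ⟨by linarith, ?_⟩
      rw [sq]
      exact mul_le_mul (by linarith [hX.2, (im_le_norm _).trans a2])
        (by linarith [hX.2, (im_le_norm _).trans b2])
        (by linarith [n_im hl (by linarith : 1 / 2 < (ν' + 4).re) hX0]) (by linarith)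
    nlinarith [mul_le_mul_of_nonneg_right h2 (norm_nonneg (ν - ν'))]
  · simp only [Prod.snd_sub, sub_self, norm_zero]
    positivity

end Vale.Agent.P139
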