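import Vale.Agent.P139.N.Defs

/-!
P139 N/RowA: four Moebius steps when `|Ω| = |im ν|` dominates (pure algebra).
`n_stepA`: `Ñ = N + I X`, `‖Ñ‖ ≤ (C + 4) s`; with `K ≥ 2 (C + 4)`, `‖ν - Ñ‖ ≥ |im (ν - Ñ)| ≥ |Ω| / 2`;
`n_mob_sub` gives `‖mob - Ñ‖ ≤ 2 ((C+4)² + 1) s² / |Ω| ≤ 2 ((C+4)² + 1) s`; `n_mob_re` with
`‖ν‖² + ℓ² ≤ C'' Ω²` (as `1 ≤ ℓ ≤ s ≤ |Ω|`), `-re ν ≤ 5/2`. `n_rowA`: apply `n_stepA` four times
(levels `ν + 3, ν + 2, ν + 1, ν` with `μ + 3`), take the maximum of the `K`, use `n_nrow`.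
-/

noncomputable section

open MeasureTheory Filter Topology Set Complex
open scoped ComplexConjugate ContDiff

namespace Vale.Agent.P139

theorem n_add_bd {N : ℂ} {X C s : ℝ} (hX : X ∈ Icc (2 : ℝ) 4) (hs : 1 ≤ s) (h : ‖N‖ ≤ C * s) :
    ‖N + I * X‖ ≤ (C + 4) * s := by
  refine (norm_add_le _ _).trans ?_
  rw [norm_mul, norm_I, one_mul, Complex.norm_of_nonneg (by linarith [hX.1])]
  linarith [hX.2]

theorem n_stepA (μ : ℝ) {C D : ℝ} (hC : 0 ≤ C) (hD : 0 ≤ D) : ∃ K ≥ 1, ∃ C' ≥ 0,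
    ∀ (ν N : ℂ) (ℓ X s : ℝ), 1 ≤ ℓ → ℓ ≤ s → ν.re ∈ Icc (-5 / 2) μ → K * s ≤ |ν.im| →
      X ∈ Icc (2 : ℝ) 4 → ‖N‖ ≤ C * s → N.re ≤ D →
        |ν.im| / 2 ≤ ‖ν - (N + I * X)‖ ∧ ‖nmob ν ℓ X N‖ ≤ C' * s ∧ (nmob ν ℓ X N).re ≤ C' ∧
          ‖nmob ν ℓ X N - (N + I * X)‖ ≤ C' * (s ^ 2 / |ν.im|) := by
  set A : ℝ := ((|μ| + 3) ^ 2 + 2) * D + 3 * ((C + 4) ^ 2 + 1) with hA
  have hA0 : 0 ≤ A := by positivity
  have hE : 0 ≤ (C + 4) ^ 2 + 1 := by positivity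
  refine ⟨2 * (C + 4), by linarith, 4 * A + (C + 4) + 2 * ((C + 4) ^ 2 + 1), by positivity,
    fun ν N ℓ X s hl hs hν hK hX hN hD' => ?_⟩
  have hs1 : 1 ≤ s := hl.trans hs
  have h1 := n_add_bd hX hs1 hN
  have hw : s ≤ |ν.im| := by nlinarith
  have hw0 : 0 < |ν.im| := by linarith
  have h2 : |ν.im| / 2 ≤ ‖ν - (N + I * X)‖ := by
    linarith [norm_sub_norm_le ν (N + I * X), abs_im_le_norm ν]
  have h3 : ν - (N + I * X) ≠ 0 := norm_pos_iff.1 (by linarith)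
  have h5 := pow_le_pow_left₀ (norm_nonneg _) h1 2
  have h6 := pow_le_pow_left₀ (by linarith) hs 2
  have h4 : ‖nmob ν ℓ X N - (N + I * X)‖ ≤ 2 * ((C + 4) ^ 2 + 1) * (s ^ 2 / |ν.im|) := by
    rw [n_mob_sub h3, norm_div]
    refine (div_le_div₀ (c := ((C + 4) ^ 2 + 1) * s ^ 2) (by positivity)
      ((norm_sub_le _ _).trans ?_) (half_pos hw0) h2).trans_eq (by field_simp)
    rw [norm_pow, norm_pow, Complex.norm_of_nonneg (by linarith)]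
    linarith
  have h7 : s ^ 2 / |ν.im| ≤ s := by
    rw [div_le_iff₀ hw0]
    nlinarith
  refine ⟨h2, ?_, ?_, h4.trans (mul_le_mul_of_nonneg_right (by linarith) (by positivity))⟩
  · have h8 := norm_add_le (nmob ν ℓ X N - (N + I * X)) (N + I * X)
    rw [sub_add_cancel] at h8
    nlinarith [mul_le_mul_of_nonneg_left h7 hE]
  · refine le_trans (b := 4 * A) (le_of_mul_le_mul_right ?_
      (pow_pos (norm_pos_iff.2 h3) 2)) (by linarith)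
    have h8 := pow_le_pow_left₀ (by linarith) h2 2
    have h9 := pow_le_pow_left₀ (by linarith) hw 2
    have h10 : 1 ≤ |ν.im| ^ 2 := one_le_pow₀ (by linarith)
    have h11 : ν.re ^ 2 ≤ (|μ| + 3) ^ 2 :=
      sq_le_sq' (by linarith [hν.1, abs_nonneg μ]) (by linarith [hν.2, le_abs_self μ])
    have h12 : ‖ν‖ ^ 2 + ℓ ^ 2 ≤ ((|μ| + 3) ^ 2 + 2) * |ν.im| ^ 2 := by
      rw [← normSq_eq_norm_sq, normSq_apply, ← sq, ← sq, ← sq_abs ν.im]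
      nlinarith [mul_le_mul_of_nonneg_left h10 (sq_nonneg (|μ| + 3))]
    have h13 : ‖N + I * X‖ ^ 2 + ℓ ^ 2 ≤ ((C + 4) ^ 2 + 1) * |ν.im| ^ 2 := by
      nlinarith [mul_le_mul_of_nonneg_left h9 hE]
    have h14 := mul_le_mul_of_nonneg_left hD' (by positivity : 0 ≤ ‖ν‖ ^ 2 + ℓ ^ 2)
    have h15 := mul_le_mul_of_nonneg_right h12 hD
    have h16 := mul_le_mul (by linarith [hν.1] : -ν.re ≤ 3) h13 (by positivity) (by norm_num)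
    have h17 := mul_le_mul_of_nonneg_left h8 hA0
    rw [n_mob_re h3]
    rw [hA] at h17 ⊢
    linarith

theorem n_rowA (μ : ℝ) {C : ℝ} (hC : 0 ≤ C) : ∃ K ≥ 1, ∃ C' ≥ 0,
    ∀ (ν N : ℂ) (ℓ X s : ℝ), 1 ≤ ℓ → ℓ ≤ s → ν.re ∈ Icc (-5 / 2) μ → K * s ≤ |ν.im| →
      X ∈ Icc (2 : ℝ) 4 → ‖N‖ ≤ C * s → N.re ≤ 0 →
        (|ν.im| / 2) ^ 4 ≤ ‖(nrow ν ℓ X N).2‖ ∧
        ‖-(nrow ν ℓ X N).1 / (nrow ν ℓ X N).2‖ ≤ C' * s ∧
        (-(nrow ν ℓ X N).1 / (nrow ν ℓ X N).2).re ≤ C' ∧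
        ‖-(nrow ν ℓ X N).1 / (nrow ν ℓ X N).2 - (N + 4 * (I * X))‖ ≤ C' * (s ^ 2 / |ν.im|) := by
  obtain ⟨K3, hK3, C3, hC3, s3⟩ := n_stepA (μ + 3) hC le_rfl
  obtain ⟨K2, hK2, C2, hC2, s2⟩ := n_stepA (μ + 3) hC3 hC3
  obtain ⟨K1, hK1, C1, hC1, s1⟩ := n_stepA (μ + 3) hC2 hC2
  obtain ⟨K0, hK0, C0, hC0, s0⟩ := n_stepA (μ + 3) hC1 hC1
  refine ⟨K0 + K1 + K2 + K3, by linarith, C0 + C1 + C2 + C3, by positivity,
    fun ν N ℓ X s hl hs hν hK hX hN hD => ?_⟩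
  have hs0 : 0 ≤ s := by linarith
  have hk : ∀ K : ℝ, K ≤ K0 + K1 + K2 + K3 → K * s ≤ |ν.im| := fun K h =>
    (mul_le_mul_of_nonneg_right h hs0).trans hK
  have i3 : (ν + 3).im = ν.im := by simp
  have i2 : (ν + 2).im = ν.im := by simp
  have i1 : (ν + 1).im = ν.im := by simp
  obtain ⟨a3, b3, c3, d3⟩ := s3 (ν + 3) N ℓ X s hl hs
    ⟨by simp; linarith [hν.1], by simpa using hν.2⟩ (i3 ▸ hk _ (by linarith)) hX hN hD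
  obtain ⟨a2, b2, c2, d2⟩ := s2 (ν + 2) _ ℓ X s hl hs
    ⟨by simp; linarith [hν.1], by simp; linarith [hν.2]⟩ (i2 ▸ hk _ (by linarith)) hX b3 c3
  obtain ⟨a1, b1, c1, d1⟩ := s1 (ν + 1) _ ℓ X s hl hs
    ⟨by simp; linarith [hν.1], by simp; linarith [hν.2]⟩ (i1 ▸ hk _ (by linarith)) hX b2 c2
  obtain ⟨a0, b0, c0, d0⟩ := s0 ν _ ℓ X s hl hs ⟨hν.1, by linarith [hν.2]⟩ (hk _ (by linarith))
    hX b1 c1
  rw [i3] at a3 d3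
  rw [i2] at a2 d2
  rw [i1] at a1 d1
  have hw : 0 < |ν.im| / 2 := by linarith [hk 1 (by linarith)]
  obtain ⟨e1, e2⟩ := n_nrow (ℓ := ℓ) rfl rfl rfl rfl (norm_pos_iff.1 (hw.trans_le a3))
    (norm_pos_iff.1 (hw.trans_le a2)) (norm_pos_iff.1 (hw.trans_le a1))
    (norm_pos_iff.1 (hw.trans_le a0))
  rw [e1, e2]
  refine ⟨?_, b0.trans (mul_le_mul_of_nonneg_right (by linarith) hs0), by linarith, ?_⟩
  · rw [show (|ν.im| / 2) ^ 4 = |ν.im| / 2 * (|ν.im| / 2) * (|ν.im| / 2) * (|ν.im| / 2) by ring]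
    gcongr
  · have h := norm_add_le_of_le (norm_add_le_of_le (norm_add_le_of_le d0 d1) d2) d3
    refine le_trans (le_of_eq ?_) (h.trans_eq (by ring))
    congr 1
    ring

end Vale.Agent.P139
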