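import Vale.Agent.P139.N.Defs

/-!
P139 N/RowB: four Moebius steps when `ℓ` dominates (pure algebra).
`n_stepB`: `Ñ = N + I X`, `‖Ñ‖ ≤ (C + 4) ℓ` for `ℓ ≥ 1`; `‖ν - Ñ‖ ≥ re (ν - Ñ) ≥ c ℓ - 5/2 ≥ c ℓ / 2`,
`‖ν - Ñ‖ ≤ (A + C + 4) ℓ`; `n_mob_re` gives
`re mob * ‖ν - Ñ‖² ≤ -c ℓ³ + (5/2) ((C+4)² + 1) ℓ² ≤ -c ℓ³ / 2` for large `ℓ`;
`‖mob‖ ≤ (A (C + 4) + 1) ℓ² / (c ℓ / 2)`. `n_rowB`: four steps with `A + 3`, `n_nrow`.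
-/

noncomputable section

open MeasureTheory Filter Topology Set Complex
open scoped ComplexConjugate ContDiff

namespace Vale.Agent.P139

theorem n_stepB {A c C : ℝ} (hA : 0 ≤ A) (hc : 0 < c) (hC : 0 ≤ C) : ∃ L ≥ 1, ∃ c' > 0, ∃ C' ≥ 0,
    ∀ (ν N : ℂ) (ℓ X : ℝ), L ≤ ℓ → -5 / 2 ≤ ν.re → ‖ν‖ ≤ A * ℓ → X ∈ Icc (2 : ℝ) 4 →
      N.re ≤ -c * ℓ → ‖N‖ ≤ C * ℓ →
        c' * ℓ ≤ ‖ν - (N + I * X)‖ ∧ (nmob ν ℓ X N).re ≤ -c' * ℓ ∧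
          ‖nmob ν ℓ X N‖ ≤ C' * ℓ := by
  have hE : 0 < A + C + 4 := by positivity
  refine ⟨1 + 5 / c + 5 * ((C + 4) ^ 2 + 1) / c, by linarith [(by positivity : 0 ≤ 5 / c),
    (by positivity : 0 ≤ 5 * ((C + 4) ^ 2 + 1) / c)], min (c / 2) (c / (2 * (A + C + 4) ^ 2)),
    by positivity, 2 * (A * (C + 4) + 1) / c, by positivity, fun ν N ℓ X hl hν hA' hX hN hC' => ?_⟩
  have p1 : 0 ≤ 5 / c := by positivity
  have p2 : 0 ≤ 5 * ((C + 4) ^ 2 + 1) / c := by positivity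
  have hl1 : 1 ≤ ℓ := by linarith
  have hl0 : 0 < ℓ := by linarith
  have h0 : 5 ≤ ℓ * c := (div_le_iff₀ hc).1 (by linarith)
  have h0' : 5 * ((C + 4) ^ 2 + 1) ≤ ℓ * c := (div_le_iff₀ hc).1 (by linarith)
  have h1 : ‖N + I * X‖ ≤ (C + 4) * ℓ := by
    refine (norm_add_le _ _).trans ?_
    rw [norm_mul, norm_I, one_mul, Complex.norm_of_nonneg (by linarith [hX.1])]
    linarith [hX.2]
  have h2 : c / 2 * ℓ ≤ ‖ν - (N + I * X)‖ := by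
    refine le_trans ?_ (re_le_norm _)
    simp only [sub_re, add_re, mul_re, I_re, I_im, ofReal_re, ofReal_im]
    linarith
  have h3 : ν - (N + I * X) ≠ 0 := norm_pos_iff.1 (lt_of_lt_of_le (by positivity) h2)
  have h4 : ‖ν - (N + I * X)‖ ≤ (A + C + 4) * ℓ := (norm_sub_le _ _).trans (by linarith)
  refine ⟨(mul_le_mul_of_nonneg_right (min_le_left _ _) hl0.le).trans h2,
    le_trans (b := -(c / (2 * (A + C + 4) ^ 2)) * ℓ) (le_of_mul_le_mul_right ?_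
      (pow_pos (norm_pos_iff.2 h3) 2))
      (mul_le_mul_of_nonneg_right (neg_le_neg (min_le_right _ _)) hl0.le), ?_⟩
  · have h5 := pow_le_pow_left₀ (norm_nonneg _) h1 2
    have h6 := mul_le_mul_of_nonneg_left (pow_le_pow_left₀ (norm_nonneg _) h4 2)
      (by positivity : 0 ≤ c / (2 * (A + C + 4) ^ 2) * ℓ)
    have h7 : c / (2 * (A + C + 4) ^ 2) * ℓ * ((A + C + 4) * ℓ) ^ 2 = c * ℓ ^ 3 / 2 := by
      field_simp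
    have h8 := mul_le_mul_of_nonneg_left hN (by positivity : 0 ≤ ‖ν‖ ^ 2 + ℓ ^ 2)
    have h9 := mul_le_mul (by linarith : -ν.re ≤ 5 / 2) (add_le_add h5 (le_refl (ℓ ^ 2)))
      (by positivity) (by norm_num)
    have h10 := mul_le_mul_of_nonneg_right h0' (sq_nonneg ℓ)
    have h11 : 0 ≤ ‖ν‖ ^ 2 * (c * ℓ) := by positivity
    rw [n_mob_re h3]
    rw [h7] at h6
    linarith
  · rw [nmob, norm_div]
    refine (div_le_div₀ (c := (A * (C + 4) + 1) * ℓ ^ 2) (by positivity)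
      ((norm_sub_le _ _).trans ?_) (by positivity) h2).trans_eq (by field_simp)
    rw [norm_mul, norm_pow, Complex.norm_of_nonneg hl0.le]
    linarith [mul_le_mul hA' h1 (norm_nonneg _) (by positivity)]

theorem n_rowB {A c C : ℝ} (hA : 0 ≤ A) (hc : 0 < c) (hC : 0 ≤ C) : ∃ L ≥ 1, ∃ c' > 0, ∃ C' ≥ 0,
    ∀ (ν N : ℂ) (ℓ X : ℝ), L ≤ ℓ → -5 / 2 ≤ ν.re → ‖ν‖ ≤ A * ℓ → X ∈ Icc (2 : ℝ) 4 →
      N.re ≤ -c * ℓ → ‖N‖ ≤ C * ℓ →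
        c' * ℓ ^ 4 ≤ ‖(nrow ν ℓ X N).2‖ ∧
        ‖-(nrow ν ℓ X N).1 / (nrow ν ℓ X N).2‖ ≤ C' * ℓ ∧
        (-(nrow ν ℓ X N).1 / (nrow ν ℓ X N).2).re ≤ 0 := by
  have hA3 : 0 ≤ A + 3 := by linarith
  obtain ⟨L3, hL3, c3, hc3, C3, hC3, s3⟩ := n_stepB hA3 hc hC
  obtain ⟨L2, hL2, c2, hc2, C2, hC2, s2⟩ := n_stepB hA3 hc3 hC3
  obtain ⟨L1, hL1, c1, hc1, C1, hC1, s1⟩ := n_stepB hA3 hc2 hC2
  obtain ⟨L0, hL0, c0, hc0, C0, hC0, s0⟩ := n_stepB hA hc1 hC1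
  refine ⟨L0 + L1 + L2 + L3, by linarith, c3 * c2 * c1 * c0, by positivity, C0, hC0,
    fun ν N ℓ X hl hν hA' hX hN hC' => ?_⟩
  have hl1 : 1 ≤ ℓ := by linarith
  have hl0 : 0 < ℓ := by linarith
  obtain ⟨a3, b3, d3⟩ := s3 (ν + 3) N ℓ X (by linarith) (by simp; linarith)
    ((norm_add_le _ _).trans (by simp; linarith)) hX hN hC'
  obtain ⟨a2, b2, d2⟩ := s2 (ν + 2) _ ℓ X (by linarith) (by simp; linarith)
    ((norm_add_le _ _).trans (by simp; linarith)) hX b3 d3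
  obtain ⟨a1, b1, d1⟩ := s1 (ν + 1) _ ℓ X (by linarith) (by simp; linarith)
    ((norm_add_le _ _).trans (by simp; linarith)) hX b2 d2
  obtain ⟨a0, b0, d0⟩ := s0 ν _ ℓ X (by linarith) hν hA' hX b1 d1
  obtain ⟨e1, e2⟩ := n_nrow (ℓ := ℓ) rfl rfl rfl rfl
    (norm_pos_iff.1 ((mul_pos hc3 hl0).trans_le a3)) (norm_pos_iff.1 ((mul_pos hc2 hl0).trans_le a2))
    (norm_pos_iff.1 ((mul_pos hc1 hl0).trans_le a1)) (norm_pos_iff.1 ((mul_pos hc0 hl0).trans_le a0))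
  rw [e1, e2]
  refine ⟨?_, d0, b0.trans (by nlinarith)⟩
  rw [show c3 * c2 * c1 * c0 * ℓ ^ 4 = c3 * ℓ * (c2 * ℓ) * (c1 * ℓ) * (c0 * ℓ) by ring]
  gcongr

end Vale.Agent.P139
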