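import Vale.Agent.P139.N.Mor
import Vale.Agent.P139.N.RowA
import Vale.Agent.P139.N.RowB

/-!
P139 N/Big: large parameters; `Ω = im ν`, `s = ℓ + √|Ω| + 1`, `N₄ = NF (ν + 4)` (`n_row_eq`; `n_mor` with
`σ1 = μ0 + 4` and `C` replaced by `|C|`, `n_re`).
`n_bigA`: `n_rowA`; `ℓ + 1 ≤ s ≤ |Ω|`, so `ℓ + |Ω| + 1 ≤ 2 |Ω|` and `|Ω| ≥ Λ / 2` is large. If
`θ ℓ² ≤ Ω` then `s² ≤ 3 (1/θ + 2) |Ω|` and `n_F` gives `re N₄ ≤ -√Ω`; if `(1 + θ) ℓ² ≤ X |Ω|` then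
`s² ≤ 18 |Ω|`, use the second part of `n_mor`.
`n_bigB`: `|Ω| ≤ K' ℓ` with `K' = K² + 4 K`, so `ℓ ≥ Λ / (K' + 1)` is large; `n_neg` at level 4,
`n_rowB` with `A = |μ0| + 5/2 + K'`, `c = 1/2`; the last two claims are vacuous for `ℓ > K'/θ, 4 K'`.
-/

noncomputable section

open MeasureTheory Filter Topology Set Complex
open scoped ComplexConjugate ContDiff

namespace Vale.Agent.P139

theorem n_bigA (μ0 : ℝ) {θ : ℝ} (hθ : 0 < θ) : ∃ K ≥ 1, ∃ Λ C c : ℝ, 0 < c ∧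
    ∀ (ν : ℂ) (ℓ : ℝ), 1 ≤ ℓ → ν.re ∈ Icc (-5 / 2) μ0 → Λ ≤ ℓ + |ν.im| → ∀ X ∈ Icc (2 : ℝ) 4,
      K * (ℓ + √|ν.im| + 1) ≤ |ν.im| → nBig θ C c ν ℓ X := by
  obtain ⟨C1, c1, hc1, hm⟩ := n_mor (μ0 + 4) hθ
  obtain ⟨K, hK, C, hC, hr⟩ := n_rowA μ0 (abs_nonneg C1)
  set D : ℝ := C * (3 / θ + 18) with hD
  have hD0 : 0 ≤ D := by positivity
  set R : ℝ := 2 + |C1| + 2 * D + 2 * D / c1 with hR
  refine ⟨K, hK, 2 * R ^ 2, C, min (1 / 256) (c1 / 2), by positivity,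
    fun ν ℓ hl hν hΛ X hX hs => ?_⟩
  have hX0 : 0 < X := by linarith [hX.1]
  have hρ0 := Real.sqrt_nonneg |ν.im|
  have hρ := Real.sq_sqrt (abs_nonneg ν.im)
  have i4 : (ν + 4).im = ν.im := by simp
  have r4 : (ν + 4).re = ν.re + 4 := by simp
  obtain ⟨m1, m2⟩ := hm (ν + 4) ℓ hl ⟨by linarith [hν.1], by linarith [hν.2]⟩ X hX
  rw [i4] at m1 m2
  obtain ⟨a1, a2, a3, a4⟩ := hr ν (NF (ν + 4) ℓ X) ℓ X _ hl (by linarith) hν hs hX
    (m1.trans (mul_le_mul_of_nonneg_right (le_abs_self C1) (by positivity)))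
    (n_re (by linarith) (by linarith [hν.1]) hX0)
  rw [← n_row_eq] at a1 a2 a3 a4
  have h1 : ℓ + √|ν.im| + 1 ≤ |ν.im| := le_trans (le_mul_of_one_le_left (by positivity) hK) hs
  have h2 : R ≤ √|ν.im| := Real.le_sqrt_of_sq_le (by linarith)
  have p1 : 0 ≤ 2 * D / c1 := by positivity
  have p2 := abs_nonneg C1
  have h3 : 2 ≤ √|ν.im| := by linarith
  have h4 : 4 ≤ |ν.im| := by nlinarith
  have h5 : ℓ ^ 2 ≤ (1 / θ + 4) * |ν.im| → ‖-(row ν ℓ X).1 / (row ν ℓ X).2 -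
      (NF (ν + 4) ℓ X + 4 * (I * X))‖ ≤ D := fun h => by
    refine a4.trans (mul_le_mul_of_nonneg_left ?_ hC)
    rw [div_le_iff₀ (by linarith), show 3 / θ = 3 * (1 / θ) by ring]
    nlinarith [sq_nonneg (ℓ - √|ν.im|), sq_nonneg (ℓ - 1), sq_nonneg (√|ν.im| - 1)]
  have q1 := mul_le_mul_of_nonneg_right (min_le_left (1 / 256) (c1 / 2)) hρ0
  have q2 := mul_le_mul_of_nonneg_right (min_le_right (1 / 256) (c1 / 2)) hρ0
  refine ⟨le_trans ?_ a1, by rwa [neg_div, norm_neg] at a2, a3, fun h => ?_, fun h => ?_⟩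
  · refine (mul_le_mul (min_le_left _ _) (pow_le_pow_left₀ (by positivity)
      (by linarith : ℓ + |ν.im| + 1 ≤ 2 * |ν.im|) 4) (by positivity) (by norm_num)).trans_eq ?_
    ring
  · have h6 : |ν.im| = ν.im := abs_of_nonneg (le_trans (by positivity) h)
    have h7 := (re_le_norm _).trans (h5 (by
      have : ℓ ^ 2 ≤ 1 / θ * |ν.im| := by
        rw [one_div_mul_eq_div, le_div_iff₀ hθ]
        linarith
      linarith))
    have h8 := n_F (ν := ν + 4) (ℓ := ℓ) (by linarith) (by linarith [hν.1]) hX0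
      (by linarith [hX.2])
    have h9 : √|ν.im| ≤ √(ℓ ^ 2 + X * ((ν + 4).im - X / 2)) := by
      refine Real.sqrt_le_sqrt ?_
      rw [i4]
      linarith [mul_le_mul hX.1 (by linarith [hX.2] : ν.im - 2 ≤ ν.im - X / 2) (by linarith) hX0.le,
        sq_nonneg ℓ]
    simp only [sub_re, add_re, mul_re, mul_im, I_re, I_im, ofReal_re, ofReal_im, re_ofNat,
      im_ofNat] at h7
    linarith
  · have h6 : |ν.im| = -ν.im := abs_of_nonpos (neg_nonneg.1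
      (nonneg_of_mul_nonneg_right (le_trans (by positivity) h) hX0))
    have h7 := (neg_le_abs _).trans ((abs_im_le_norm _).trans (h5 (by
      have p3 : 0 ≤ 1 / θ * |ν.im| := by positivity
      rw [← h6] at h
      linarith [mul_le_mul_of_nonneg_right hX.2 (abs_nonneg ν.im), mul_nonneg hθ.le (sq_nonneg ℓ)])))
    have h8 := m2 (by linarith [le_abs_self C1]) h
    have h9 : 2 * D ≤ √|ν.im| * c1 := (div_le_iff₀ hc1).1 (by linarith)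
    simp only [sub_im, add_im, mul_re, mul_im, I_re, I_im, ofReal_re, ofReal_im, re_ofNat,
      im_ofNat] at h7
    linarith

theorem n_bigB (μ0 : ℝ) {θ K : ℝ} (hθ : 0 < θ) (hK : 1 ≤ K) : ∃ Λ C c : ℝ, 0 < c ∧
    ∀ (ν : ℂ) (ℓ : ℝ), 1 ≤ ℓ → ν.re ∈ Icc (-5 / 2) μ0 → Λ ≤ ℓ + |ν.im| → ∀ X ∈ Icc (2 : ℝ) 4,
      |ν.im| ≤ K * (ℓ + √|ν.im| + 1) → nBig θ C c ν ℓ X := by
  obtain ⟨C1, c1, -, hm⟩ := n_mor (μ0 + 4) hθ
  set K' : ℝ := K ^ 2 + 4 * K with hK'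
  have hK0 : 0 < K' := by positivity
  obtain ⟨L, hL, c, hc, C, hC, hr⟩ := n_rowB (A := |μ0| + 3 + K') (c := 1 / 2)
    (C := |C1| * (K' + 3)) (by positivity) (by norm_num) (by positivity)
  refine ⟨(K' + 1) * (L + 14 + 10 * K' + K' / θ), C, c / (K' + 2) ^ 4, by positivity,
    fun ν ℓ hl hν hΛ X hX hs => ?_⟩
  have hX0 : 0 < X := by linarith [hX.1]
  have hρ0 := Real.sqrt_nonneg |ν.im|
  have hρ := Real.sq_sqrt (abs_nonneg ν.im)
  have i4 : (ν + 4).im = ν.im := by simp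
  have r4 : (ν + 4).re = ν.re + 4 := by simp
  have h1 : |ν.im| ≤ K' * ℓ := by
    nlinarith [sq_nonneg (√|ν.im| - K), mul_le_mul_of_nonneg_left hl (sq_nonneg K),
      mul_le_mul_of_nonneg_left hl (by linarith : 0 ≤ K)]
  have h2 : L + 14 + 10 * K' + K' / θ ≤ ℓ :=
    le_of_mul_le_mul_left (by linarith) (by linarith : 0 < K' + 1)
  have p1 : 0 ≤ K' / θ := by positivity
  have m1 := (hm (ν + 4) ℓ hl ⟨by linarith [hν.1], by linarith [hν.2]⟩ X hX).1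
  rw [i4] at m1
  have h3 : ℓ + √|ν.im| + 1 ≤ (K' + 3) * ℓ := by nlinarith [sq_nonneg (√|ν.im| - 1)]
  have h4 := n_neg (ν := ν + 4) (ℓ := ℓ) (by linarith) (by linarith [hν.1]) hX (by
    rw [i4]
    nlinarith)
  obtain ⟨a1, a2, a3⟩ := hr ν (NF (ν + 4) ℓ X) ℓ X (by linarith) hν.1 (by
      have h5 : |ν.re| ≤ |μ0| + 3 :=
        abs_le.2 ⟨by linarith [hν.1, abs_nonneg μ0], by linarith [hν.2, le_abs_self μ0]⟩
      linarith [norm_le_abs_re_add_abs_im ν,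
        mul_le_mul_of_nonneg_left hl (by positivity : 0 ≤ |μ0| + 3)]) hX (by linarith)
    (m1.trans ((mul_le_mul (le_abs_self C1) h3 (by positivity) (abs_nonneg _)).trans_eq (by ring)))
  rw [← n_row_eq] at a1 a2 a3
  rw [neg_div, norm_neg] at a2
  refine ⟨le_trans ?_ a1, a2.trans (mul_le_mul_of_nonneg_left (by linarith) hC), a3.trans hC,
    fun h => ?_, fun h => ?_⟩
  · refine (mul_le_mul_of_nonneg_left (pow_le_pow_left₀ (by positivity)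
      (by linarith : ℓ + |ν.im| + 1 ≤ (K' + 2) * ℓ) 4) (by positivity)).trans_eq ?_
    field_simp
  · have h5 : K' < ℓ * θ := (div_lt_iff₀ hθ).1 (by linarith)
    nlinarith [le_abs_self ν.im]
  · nlinarith [mul_le_mul hX.2 ((neg_le_abs _).trans h1) (nonneg_of_mul_nonneg_right
      (le_trans (by positivity) h) hX0) (by norm_num), mul_nonneg hθ.le (sq_nonneg ℓ)]

theorem n_big (μ0 : ℝ) {θ : ℝ} (hθ : 0 < θ) : ∃ Λ C c : ℝ, 0 < c ∧ ∀ (ν : ℂ) (ℓ : ℝ), 1 ≤ ℓ →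
    ν.re ∈ Icc (-5 / 2) μ0 → Λ ≤ ℓ + |ν.im| → ∀ X ∈ Icc (2 : ℝ) 4, nBig θ C c ν ℓ X := by
  obtain ⟨K, hK, Λ, C, c, hc, h⟩ := n_bigA μ0 hθ
  obtain ⟨Λ', C', c', hc', h'⟩ := n_bigB μ0 hθ hK
  refine ⟨max Λ Λ', max C C', min c c', lt_min hc hc', fun ν ℓ hl hν hΛ X hX => ?_⟩
  rcases le_total (K * (ℓ + √|ν.im| + 1)) |ν.im| with h1 | h1
  · exact n_big_mono (h ν ℓ hl hν ((le_max_left _ _).trans hΛ) X hX h1) (by linarith)
      (le_max_left _ _) (min_le_left _ _)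
  · exact n_big_mono (h' ν ℓ hl hν ((le_max_right _ _).trans hΛ) X hX h1) (by linarith)
      (le_max_right _ _) (min_le_right _ _)

end Vale.Agent.P139
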