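import Vale.Agent.P139.Def

/-!
P139 N/Defs: definitions of part N and the algebra of the Moebius step.
-/

noncomputable section

open MeasureTheory Filter Topology Set Complex
open scoped ComplexConjugate ContDiff

namespace Vale.Agent.P139

/-- The kernel. -/
def nK (a b : ℂ) (X s : ℝ) : ℂ := exp (-(X * s : ℝ)) * (s : ℂ) ^ (a - 1) * (1 + I * s) ^ b

def nF (a b : ℂ) (X : ℝ) : ℂ := ∫ s in Ioi (0 : ℝ), nK a b X s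

theorem n_yF_eq (ν : ℂ) (ℓ X : ℝ) : yF ν ℓ X = ((X ^ ℓ : ℝ) : ℂ) * nF (ℓ + ν) (ℓ - ν) X := rfl

/-- The flux. -/
def nphi (ν : ℂ) (ℓ X : ℝ) : ℝ :=
  (Lam (yF ν ℓ) X * conj (yF ν ℓ X)).im + X * ‖yF ν ℓ X‖ ^ 2 / 2

/-- One step of the continued fraction. -/
def nmob (ν : ℂ) (ℓ X : ℝ) (N : ℂ) : ℂ := (ν * (N + I * X) - ℓ ^ 2) / (ν - (N + I * X))

def nrow (ν : ℂ) (ℓ X : ℝ) (N : ℂ) : ℂ × ℂ :=
  rowStep ν ℓ X (rowStep (ν + 1) ℓ X (rowStep (ν + 2) ℓ X (rowStep (ν + 3) ℓ X (-N, 1))))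

theorem n_row_eq (ν : ℂ) (ℓ X : ℝ) : row ν ℓ X = nrow ν ℓ X (NF (ν + 4) ℓ X) := rfl

/-- The conclusion of `row_big`. -/
def nBig (θ C c : ℝ) (ν : ℂ) (ℓ X : ℝ) : Prop :=
  c * (ℓ + |ν.im| + 1) ^ 4 ≤ ‖(row ν ℓ X).2‖ ∧
    ‖(row ν ℓ X).1 / (row ν ℓ X).2‖ ≤ C * (ℓ + √|ν.im| + 1) ∧
    (-(row ν ℓ X).1 / (row ν ℓ X).2).re ≤ C ∧
    (θ * ℓ ^ 2 ≤ ν.im → (-(row ν ℓ X).1 / (row ν ℓ X).2).re ≤ -c * √|ν.im|) ∧
    ((1 + θ) * ℓ ^ 2 ≤ X * -ν.im → c * √|ν.im| ≤ (-(row ν ℓ X).1 / (row ν ℓ X).2).im)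

variable {ν N : ℂ} {ℓ X : ℝ}

theorem n_big_mono {θ C c C' c' : ℝ} (h : nBig θ C c ν ℓ X) (hl : 0 ≤ ℓ) (hC : C ≤ C')
    (hc : c' ≤ c) : nBig θ C' c' ν ℓ X := by
  obtain ⟨h1, h2, h3, h4, h5⟩ := h
  have h6 := mul_le_mul_of_nonneg_right hc (Real.sqrt_nonneg |ν.im|)
  exact ⟨(mul_le_mul_of_nonneg_right hc (by positivity)).trans h1,
    h2.trans (mul_le_mul_of_nonneg_right hC (by positivity)), h3.trans hC,
    fun h => (h4 h).trans (by linarith), fun h => h6.trans (h5 h)⟩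

theorem n_mob_mul (h : ν - (N + I * X) ≠ 0) :
    nmob ν ℓ X N * (ν - (N + I * X)) = ν * (N + I * X) - ℓ ^ 2 := div_mul_cancel₀ _ h

theorem n_mob_sub (h : ν - (N + I * X) ≠ 0) :
    nmob ν ℓ X N - (N + I * X) = ((N + I * X) ^ 2 - ℓ ^ 2) / (ν - (N + I * X)) := by
  rw [eq_div_iff h, sub_mul, n_mob_mul h]
  ring

theorem n_mob_conj (h : ν - (N + I * X) ≠ 0) :
    nmob ν ℓ X N * ((‖ν - (N + I * X)‖ ^ 2 : ℝ) : ℂ) =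
      (ν * (N + I * X) - ℓ ^ 2) * conj (ν - (N + I * X)) := by
  rw [← n_mob_mul h, mul_assoc, mul_conj, normSq_eq_norm_sq]

theorem n_mob_re (h : ν - (N + I * X) ≠ 0) :
    (nmob ν ℓ X N).re * ‖ν - (N + I * X)‖ ^ 2 =
      (‖ν‖ ^ 2 + ℓ ^ 2) * N.re - ν.re * (‖N + I * X‖ ^ 2 + ℓ ^ 2) := by
  have h1 := congrArg re (n_mob_conj (ℓ := ℓ) h)
  rw [re_mul_ofReal] at h1
  rw [h1, ← normSq_eq_norm_sq, ← normSq_eq_norm_sq, ← ofReal_pow]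
  simp [normSq_apply, -ofReal_pow]
  ring

theorem n_mob_im (h : ν - (N + I * X) ≠ 0) :
    (nmob ν ℓ X N).im * ‖ν - (N + I * X)‖ ^ 2 =
      (‖ν‖ ^ 2 - ℓ ^ 2) * (N.im + X) - ν.im * (‖N + I * X‖ ^ 2 - ℓ ^ 2) := by
  have h1 := congrArg im (n_mob_conj (ℓ := ℓ) h)
  rw [im_mul_ofReal] at h1
  rw [h1, ← normSq_eq_norm_sq, ← normSq_eq_norm_sq, ← ofReal_pow]
  simp [normSq_apply, -ofReal_pow]
  ring

theorem n_rowStep (h : ν - (N + I * X) ≠ 0) (B : ℂ) : rowStep ν ℓ X (-N * B, B) =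
    (-nmob ν ℓ X N * (B * (ν - (N + I * X))), B * (ν - (N + I * X))) := by
  refine Prod.ext ?_ ?_
  · simp only [rowStep]
    linear_combination B * n_mob_mul (ℓ := ℓ) h
  · simp only [rowStep]
    ring

/-- The row in terms of the continued fraction. -/
theorem n_nrow {N3 N2 N1 N0 : ℂ} (e3 : N3 = nmob (ν + 3) ℓ X N) (e2 : N2 = nmob (ν + 2) ℓ X N3)
    (e1 : N1 = nmob (ν + 1) ℓ X N2) (e0 : N0 = nmob ν ℓ X N1) (h3 : ν + 3 - (N + I * X) ≠ 0)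
    (h2 : ν + 2 - (N3 + I * X) ≠ 0) (h1 : ν + 1 - (N2 + I * X) ≠ 0) (h0 : ν - (N1 + I * X) ≠ 0) :
    ‖(nrow ν ℓ X N).2‖ = ‖ν + 3 - (N + I * X)‖ * ‖ν + 2 - (N3 + I * X)‖ *
      ‖ν + 1 - (N2 + I * X)‖ * ‖ν - (N1 + I * X)‖ ∧
    -(nrow ν ℓ X N).1 / (nrow ν ℓ X N).2 = N0 := by
  have e : nrow ν ℓ X N = (-N0 * (1 * (ν + 3 - (N + I * X)) * (ν + 2 - (N3 + I * X)) *
      (ν + 1 - (N2 + I * X)) * (ν - (N1 + I * X))), 1 * (ν + 3 - (N + I * X)) *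
      (ν + 2 - (N3 + I * X)) * (ν + 1 - (N2 + I * X)) * (ν - (N1 + I * X))) := by
    rw [nrow, show ((-N, 1) : ℂ × ℂ) = (-N * 1, 1) by rw [mul_one], n_rowStep h3, ← e3,
      n_rowStep h2, ← e2, n_rowStep h1, ← e1, n_rowStep h0, ← e0]
  rw [e]
  refine ⟨by simp only [one_mul, norm_mul], ?_⟩
  simp only
  field_simp

end Vale.Agent.P139
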