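import Vale.Agent.P139.N.Int

/-!
P139 N/Der: derivative in `X` and the two contiguity relations.
`n_F_deriv`: `hasDerivAt_integral_of_dominated_loc_of_deriv_le` with `n_dom`;
`s * nK a b X s = nK (a + 1) b X s` for `s > 0`. `n_F_shift`: `cpow_add`, `integral_add`.
`n_F_ibp`: `s ↦ nK (a + 1) b X s` has derivative
`-X nK (a+1) b + a nK a b + I b nK (a+1) (b-1)`, limit `0` at `0` and at infinity
(`integral_Ioi_of_hasDerivAt_of_tendsto`, `tendsto_zero_of_hasDerivAt_of_integrableOn_Ioi`).
-/

noncomputable section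

open MeasureTheory Filter Topology Set Complex
open scoped ComplexConjugate ContDiff

namespace Vale.Agent.P139

variable {a : ℂ} {X : ℝ}

theorem n_K_succ (a b : ℂ) (X : ℝ) {s : ℝ} (hs : 0 < s) : nK (a + 1) b X s = s * nK a b X s := by
  rw [nK, nK, show a + 1 - 1 = 1 + (a - 1) by ring, cpow_add _ _ (ofReal_ne_zero.2 hs.ne'),
    cpow_one]
  ring

theorem n_K_shift (a b : ℂ) (X s : ℝ) : nK a (b + 1) X s = (1 + I * s) * nK a b X s := by
  rw [nK, nK, cpow_add _ _ (slitPlane_ne_zero (n_slit s)), cpow_one]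
  ring

theorem n_exp_deriv (s X : ℝ) : HasDerivAt (fun X : ℝ => exp (-((X * s : ℝ) : ℂ)))
    (exp (-((X * s : ℝ) : ℂ)) * -(s : ℂ)) X := by
  have h := (((hasDerivAt_id X).mul_const s).ofReal_comp.neg).cexp
  simpa using h

theorem n_F_deriv (ha : 0 < a.re) (b : ℂ) (hX : 0 < X) :
    HasDerivAt (nF a b) (-nF (a + 1) b X) X := by
  obtain ⟨g, hg, h⟩ := n_dom (half_pos hX) ha (max (a.re + 1) ‖b‖)
  have h1 := hasDerivAt_integral_of_dominated_loc_of_deriv_le (μ := volume.restrict (Ioi 0))
    (F := fun X s => nK a b X s) (F' := fun X s => -nK (a + 1) b X s) (bound := g)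
    (Ioi_mem_nhds (half_lt_self hX)) (Eventually.of_forall fun X => n_K_meas a b X)
    (n_K_int ha b hX) (n_K_meas _ b X).neg
    ((ae_restrict_mem measurableSet_Ioi).mono fun s hs Y hY => by
      rw [norm_neg]
      exact h _ b Y s (le_of_lt hY) (by simp) (by simp) (le_max_right _ _) hs) hg
    ((ae_restrict_mem measurableSet_Ioi).mono fun s hs Y _ => by
      refine (((n_exp_deriv s Y).mul_const _).mul_const _).congr_deriv ?_
      rw [n_K_succ a b Y hs, nK]
      ring)
  rw [integral_neg] at h1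
  exact h1.2

theorem n_F_shift (ha : 0 < a.re) (b : ℂ) (hX : 0 < X) :
    nF a (b + 1) X = nF a b X + I * nF (a + 1) b X := by
  rw [nF, nF, nF, ← integral_const_mul, ← integral_add (n_K_int ha b hX)
    ((n_K_int (by simp; linarith) b hX).const_mul _)]
  refine setIntegral_congr_fun measurableSet_Ioi fun s hs => ?_
  simp only [n_K_shift, n_K_succ a b X hs]
  ring

theorem n_F_ibp (ha : 0 < a.re) (b : ℂ) (hX : 0 < X) :
    X * nF (a + 1) b X = a * nF a b X + I * b * nF (a + 1) (b - 1) X := by
  have ha1 : 0 < (a + 1).re := by simp; linarith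
  have i1 := (n_K_int ha1 b hX).const_mul (-(X : ℂ))
  have i2 := (n_K_int ha b hX).const_mul a
  have i3 := (n_K_int ha1 (b - 1) hX).const_mul (I * b)
  have hd : ∀ s ∈ Ioi (0 : ℝ), HasDerivAt (nK (a + 1) b X)
      (-X * nK (a + 1) b X s + a * nK a b X s + I * b * nK (a + 1) (b - 1) X s) s := by
    intro s (hs : 0 < s)
    have h1 := n_exp_deriv X s
    simp only [mul_comm _ X] at h1
    have h2 := hasDerivAt_ofReal_cpow_const hs.ne' (r := a + 1 - 1)
      (by rw [add_sub_cancel_right]; rintro rfl; simp at ha)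
    have h3 : HasDerivAt (fun z : ℂ => (1 + I * z) ^ b) (b * (1 + I * s) ^ (b - 1) * I) s := by
      simpa using (((hasDerivAt_id (s : ℂ)).const_mul I).const_add 1).cpow_const (c := b) (n_slit s)
    refine ((h1.mul h2).mul h3.comp_ofReal).congr_deriv ?_
    simp only [nK, add_sub_cancel_right, Pi.mul_apply]
    ring
  have hc : ContinuousWithinAt (nK (a + 1) b X) (Ici 0) 0 := by
    refine ContinuousAt.continuousWithinAt (ContinuousAt.mul (ContinuousAt.mul (by fun_prop)
      (continuousAt_ofReal_cpow_const 0 _ (Or.inl (by simpa using ha)))) ?_)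
    exact ContinuousAt.cpow (by fun_prop) continuousAt_const (n_slit 0)
  have h := integral_Ioi_of_hasDerivAt_of_tendsto hc hd ((i1.add i2).add i3)
    (tendsto_zero_of_hasDerivAt_of_integrableOn_Ioi hd ((i1.add i2).add i3) (n_K_int ha1 b hX))
  have h0 : nK (a + 1) b X 0 = 0 := by
    have : a ≠ 0 := by rintro rfl; simp at ha
    simp [nK, this]
  have i4 : Integrable (fun s => -X * nK (a + 1) b X s + a * nK a b X s) _ := i1.add i2
  rw [integral_add i4 i3, integral_add i1 i2, integral_const_mul, integral_const_mul,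
    integral_const_mul, h0] at h
  unfold nF
  linear_combination -h

end Vale.Agent.P139
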