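import Vale.Agent.P139.N.Lad

/-!
P139 N/Flux: the flux identity.
`n_sq_deriv`, `n_phi_deriv`: from `n_dy`, `n_dp` (`HasDerivAt.star`, `imCLM.hasFDerivAt.comp_hasDerivAt`,
`‖y‖ ^ 2 = (y * conj y).re`). `n_phi_int`: `integrableOn_Ioi_deriv_of_nonneg'` and
`integral_Ioi_of_hasDerivAt_of_nonneg'` for `-nphi`. `n_ne`: if `y X = 0` then the integral vanishes,
so `y = 0` on `Ioi X` (continuity, `setIntegral_eq_zero_iff_of_nonneg_ae`, `Measure.eqOn_open_of_ae_eq`;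
or: `nphi` is antitone, nonnegative, so zero after `X`, so is its derivative), contradiction with
`n_tendsto` and `Gamma_ne_zero_of_re_pos`.
-/

noncomputable section

open MeasureTheory Filter Topology Set Complex
open scoped ComplexConjugate ContDiff

namespace Vale.Agent.P139

variable {ν : ℂ} {ℓ X : ℝ}

theorem n_d_re {f : ℝ → ℂ} {f' : ℂ} (h : HasDerivAt f f' X) :
    HasDerivAt (fun Y => (f Y).re) f'.re X := reCLM.hasFDerivAt.comp_hasDerivAt X h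

theorem n_d_im {f : ℝ → ℂ} {f' : ℂ} (h : HasDerivAt f f' X) :
    HasDerivAt (fun Y => (f Y).im) f'.im X := imCLM.hasFDerivAt.comp_hasDerivAt X h

theorem n_d_conj {f : ℝ → ℂ} {f' : ℂ} (h : HasDerivAt f f' X) :
    HasDerivAt (fun Y => conj (f Y)) (conj f') X := conjCLE.hasFDerivAt.comp_hasDerivAt X h

theorem n_d_sq {f : ℝ → ℂ} {f' : ℂ} (h : HasDerivAt f f' X) :
    HasDerivAt (fun Y => ‖f Y‖ ^ 2) (2 * (f' * conj (f X)).re) X := by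
  have h1 := n_d_re (h.mul (n_d_conj h))
  simp only [Pi.mul_apply, mul_conj, ofReal_re, normSq_eq_norm_sq] at h1
  refine h1.congr_deriv ?_
  simp
  ring

theorem n_t_pc (hl : 0 ≤ ℓ) (h : 0 < ν.re) :
    Tendsto (fun X => Lam (yF ν ℓ) X * conj (yF ν ℓ X)) atTop (𝓝 0) := by
  simpa using (n_p0 hl h).mul ((continuous_conj.tendsto 0).comp (n_y0 hl h))

theorem n_t_sq {f : ℝ → ℂ} (h : Tendsto f atTop (𝓝 0)) :
    Tendsto (fun X => ‖f X‖ ^ 2) atTop (𝓝 0) := by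
  simpa using h.norm.pow 2

theorem n_sq_deriv (h : 0 < ℓ + ν.re) (hX : 0 < X) : HasDerivAt (fun Y => ‖yF ν ℓ Y‖ ^ 2)
    (2 * (Lam (yF ν ℓ) X * conj (yF ν ℓ X)).re / X) X := by
  refine (n_d_sq (n_dy h hX)).congr_deriv ?_
  rw [div_mul_eq_mul_div, div_ofReal_re, mul_div_assoc]

theorem n_phi_deriv (h : 0 < ℓ + ν.re) (hX : 0 < X) :
    HasDerivAt (nphi ν ℓ) ((1 / 2 - ν.re) * ‖yF ν ℓ X‖ ^ 2) X := by
  refine ((n_d_im ((n_dp h hX).mul (n_d_conj (n_dy h hX)))).add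
    (((hasDerivAt_id X).mul (n_sq_deriv h hX)).div_const 2)).congr_deriv ?_
  rw [map_div₀, conj_ofReal, div_mul_eq_mul_div, ← mul_div_assoc, ← add_div, div_ofReal_im,
    ← normSq_eq_norm_sq, ← ofReal_pow]
  have := hX.ne'
  simp only [id, normSq_apply, add_im, mul_im, mul_re, sub_re, sub_im, add_re, ofReal_re, ofReal_im,
    conj_re, conj_im, I_re, I_im]
  field_simp
  ring

theorem n_phi_lim (hl : 0 ≤ ℓ) (h : 1 / 2 < ν.re) : Tendsto (nphi ν ℓ) atTop (𝓝 0) := by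
  have h1 := ((continuous_im.tendsto 0).comp (n_t_pc hl (by linarith : 0 < ν.re))).add
    ((n_xy0 hl h).div_const 2)
  rw [zero_im, zero_div, add_zero] at h1
  exact h1

theorem n_phi_int (hl : 0 ≤ ℓ) (h : 1 / 2 < ν.re) (hX : 0 < X) :
    IntegrableOn (fun Y => ‖yF ν ℓ Y‖ ^ 2) (Ioi X) ∧
      (ν.re - 1 / 2) * ∫ Y in Ioi X, ‖yF ν ℓ Y‖ ^ 2 = nphi ν ℓ X := by
  have hd : ∀ Y ∈ Ici X, HasDerivAt (fun Y => -nphi ν ℓ Y) ((ν.re - 1 / 2) * ‖yF ν ℓ Y‖ ^ 2) Y :=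
    fun Y hY => (n_phi_deriv (by linarith) (hX.trans_le hY)).neg.congr_deriv (by ring)
  have h0 : 0 < ν.re - 1 / 2 := sub_pos.2 h
  have hp : ∀ Y ∈ Ioi X, 0 ≤ (ν.re - 1 / 2) * ‖yF ν ℓ Y‖ ^ 2 := fun Y _ => by positivity
  refine ⟨(integrable_const_mul_iff (IsUnit.mk0 _ h0.ne') _).1
    (integrableOn_Ioi_deriv_of_nonneg' hd hp (n_phi_lim hl h).neg), ?_⟩
  rw [← integral_const_mul, integral_Ioi_of_hasDerivAt_of_nonneg' hd hp (n_phi_lim hl h).neg]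
  simp

theorem n_phi_nonneg (hl : 0 ≤ ℓ) (h : 1 / 2 < ν.re) (hX : 0 < X) : 0 ≤ nphi ν ℓ X := by
  rw [← (n_phi_int hl h hX).2]
  exact mul_nonneg (sub_pos.2 h).le (integral_nonneg fun Y => by positivity)

theorem n_ne (hl : 0 ≤ ℓ) (h : 1 / 2 < ν.re) (hX : 0 < X) : yF ν ℓ X ≠ 0 := by
  intro h0
  obtain ⟨h1, h2⟩ := n_phi_int hl h hX
  have h3 : nphi ν ℓ X = 0 := by simp [nphi, h0]
  rw [h3, mul_eq_zero_iff_left (sub_pos.2 h).ne', setIntegral_eq_zero_iff_of_nonneg_ae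
    (Eventually.of_forall fun Y => by positivity) h1] at h2
  have h4 := Measure.eqOn_open_of_ae_eq h2 isOpen_Ioi (fun Y hY => (n_sq_deriv (by linarith)
    (hX.trans hY)).continuousAt.continuousWithinAt) continuousOn_const
  refine Gamma_ne_zero_of_re_pos (s := ℓ + ν) (by simp; linarith) (tendsto_nhds_unique
    (n_tendsto (by linarith)) (tendsto_const_nhds.congr' ((eventually_gt_atTop X).mono
      fun Y hY => ?_)))
  have h5 : yF ν ℓ Y = 0 := by simpa using h4 hY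
  simp [h5]

theorem n_p_eq (hl : 0 ≤ ℓ) (h : 1 / 2 < ν.re) (hX : 0 < X) :
    Lam (yF ν ℓ) X = NF ν ℓ X * yF ν ℓ X := (div_mul_cancel₀ _ (n_ne hl h hX)).symm

theorem n_pc_eq (hl : 0 ≤ ℓ) (h : 1 / 2 < ν.re) (hX : 0 < X) :
    Lam (yF ν ℓ) X * conj (yF ν ℓ X) = NF ν ℓ X * ((‖yF ν ℓ X‖ ^ 2 : ℝ) : ℂ) := by
  rw [n_p_eq hl h hX, mul_assoc, mul_conj, normSq_eq_norm_sq]

theorem n_flux (hl : 0 ≤ ℓ) (h : 1 / 2 < ν.re) (hX : 0 < X) :
    IntegrableOn (fun Y => ‖yF ν ℓ Y‖ ^ 2) (Ioi X) ∧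
      (ν.re - 1 / 2) * ∫ Y in Ioi X, ‖yF ν ℓ Y‖ ^ 2 =
        ((NF ν ℓ X).im + X / 2) * ‖yF ν ℓ X‖ ^ 2 := by
  refine ⟨(n_phi_int hl h hX).1, ?_⟩
  rw [(n_phi_int hl h hX).2, nphi, n_pc_eq hl h hX, im_mul_ofReal]
  ring

theorem n_im (hl : 0 ≤ ℓ) (h : 1 / 2 < ν.re) (hX : 0 < X) : -X / 2 ≤ (NF ν ℓ X).im := by
  have h1 := n_phi_nonneg hl h hX
  rw [← (n_phi_int hl h hX).2, (n_flux hl h hX).2] at h1
  have h2 := nonneg_of_mul_nonneg_left h1 (pow_pos (norm_pos_iff.2 (n_ne hl h hX)) 2)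
  linarith

end Vale.Agent.P139
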