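import Vale.Agent.P139.N.Flux

/-!
P139 N/Green: the Green identity and the Lipschitz estimate.
`n_W_deriv`: product rule with `n_dy`, `n_dp`. `n_green`: `y` and `Lam y` are differentiable on
`Ioi 0` (`ContDiffOn.deriv_of_isOpen`), `deriv f X = Lam f X / X`;
`intervalIntegral.integral_eq_sub_of_hasDerivAt`. `n_lip`: take `y = yF ν'`, `p = Lam (yF ν')`,
`s = I (ν - ν') y`; `W → 0` (`n_y0`, `n_p0`), `integral_Ioi_of_hasDerivAt_of_tendsto'`, so
`‖N - N'‖ |y| |y'| = ‖W X‖ ≤ ‖ν - ν'‖ ∫ |y| |y'|`; Cauchy-Schwarz (for instance from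
`2 |y| |y'| ≤ t |y|² + |y'|² / t`, or the discriminant, `discrim_le_zero`) and `n_flux`.
-/

noncomputable section

open MeasureTheory Filter Topology Set Complex
open scoped ComplexConjugate ContDiff

namespace Vale.Agent.P139

variable {ν : ℂ} {ℓ X : ℝ}

theorem n_W_deriv {y p : ℝ → ℂ} {s : ℂ} (h : 0 < ℓ + ν.re) (hX : 0 < X)
    (hy : HasDerivAt y (p X / X) X)
    (hp : HasDerivAt p ((ℓ ^ 2 * y X - I * X * (p X + ν * y X) + X * s) / X) X) :
    HasDerivAt (fun Y : ℝ => (p Y * yF ν ℓ Y - y Y * Lam (yF ν ℓ) Y) * exp (I * Y))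
      (s * yF ν ℓ X * exp (I * X)) X := by
  have h1 : HasDerivAt (fun Y : ℝ => exp (I * Y)) (exp (I * X) * I) X := by
    simpa using ((hasDerivAt_id X).ofReal_comp.const_mul I).cexp
  refine (((hp.mul (n_dy h hX)).sub (hy.mul (n_dp h hX))).mul h1).congr_deriv ?_
  have h0 : (X : ℂ) ≠ 0 := ofReal_ne_zero.2 hX.ne'
  simp only [Pi.mul_apply, Pi.sub_apply]
  field_simp
  ring

theorem n_green {y s : ℝ → ℂ} {X0 X1 : ℝ} (h : 0 < ℓ + ν.re) (h0 : 0 < X0) (h1 : X0 ≤ X1)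
    (hy : ContDiffOn ℝ 2 y (Ioi 0)) (hs : ContinuousOn s (Ioi 0))
    (he : ∀ X ∈ Icc X0 X1, Lam (Lam y) X - ℓ ^ 2 * y X + I * X * (Lam y X + ν * y X) = X * s X) :
    (Lam y X1 * yF ν ℓ X1 - y X1 * Lam (yF ν ℓ) X1) * exp (I * X1) -
      (Lam y X0 * yF ν ℓ X0 - y X0 * Lam (yF ν ℓ) X0) * exp (I * X0) =
        ∫ X in X0..X1, s X * yF ν ℓ X * exp (I * X) := by
  have hp : ∀ X ∈ uIcc X0 X1, 0 < X := fun X hX => h0.trans_le (uIcc_of_le h1 ▸ hX).1
  have hd : ContDiffOn ℝ 1 (deriv y) (Ioi 0) := hy.deriv_of_isOpen isOpen_Ioi le_rfl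
  refine (intervalIntegral.integral_eq_sub_of_hasDerivAt (f := fun Y : ℝ =>
    (Lam y Y * yF ν ℓ Y - y Y * Lam (yF ν ℓ) Y) * exp (I * Y)) (fun X hX => ?_)
    (ContinuousOn.intervalIntegrable (((hs.mono hp).mul ((n_contDiff h).continuousOn.mono hp)).mul
      (by fun_prop)))).symm
  have hX0 := hp X hX
  have h2 : (X : ℂ) ≠ 0 := ofReal_ne_zero.2 hX0.ne'
  have h3 : DifferentiableAt ℝ y X :=
    (hy.differentiableOn (by simp) X hX0).differentiableAt (Ioi_mem_nhds hX0)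
  have h4 : DifferentiableAt ℝ (Lam y) X := (hasDerivAt_id X).ofReal_comp.differentiableAt.mul
    ((hd.differentiableOn (by simp) X hX0).differentiableAt (Ioi_mem_nhds hX0))
  refine n_W_deriv h hX0 (h3.hasDerivAt.congr_deriv ?_) (h4.hasDerivAt.congr_deriv ?_)
  · rw [Lam, mul_div_cancel_left₀ _ h2]
  · rw [eq_div_iff h2, ← he X (uIcc_of_le h1 ▸ hX), mul_comm (deriv _ _)]
    change Lam (Lam y) X = _
    ring

theorem n_cs {f g : ℝ → ℝ} {μ : Measure ℝ} (hf : Integrable (fun x => f x ^ 2) μ)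
    (hg : Integrable (fun x => g x ^ 2) μ) (hfg : Integrable (fun x => f x * g x) μ) :
    ∫ x, f x * g x ∂μ ≤ √((∫ x, f x ^ 2 ∂μ) * ∫ x, g x ^ 2 ∂μ) := by
  refine Real.le_sqrt_of_sq_le ?_
  have h := discrim_le_zero (a := ∫ x, f x ^ 2 ∂μ) (b := 2 * ∫ x, f x * g x ∂μ)
    (c := ∫ x, g x ^ 2 ∂μ) fun t => by
      have h1 : Integrable (fun x => f x ^ 2 * (t * t) + 2 * (f x * g x) * t) μ :=
        (hf.mul_const _).add ((hfg.const_mul 2).mul_const t)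
      rw [← integral_mul_const, ← integral_const_mul, ← integral_mul_const,
        ← integral_add (hf.mul_const _) ((hfg.const_mul 2).mul_const t), ← integral_add h1 hg]
      exact integral_nonneg fun x => by
        simp only [Pi.zero_apply]
        nlinarith [sq_nonneg (f x * t + g x)]
  rw [discrim] at h
  linarith

theorem n_lip {ν' : ℂ} {σ : ℝ} (hl : 0 ≤ ℓ) (hσ : 1 / 2 < σ) (h : σ ≤ ν.re) (h' : σ ≤ ν'.re)
    (hX : 0 < X) : ‖NF ν ℓ X - NF ν' ℓ X‖ ≤ ‖ν - ν'‖ *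
      √(((NF ν ℓ X).im + X / 2) * ((NF ν' ℓ X).im + X / 2)) / (σ - 1 / 2) := by
  have g : 1 / 2 < ν.re := hσ.trans_le h
  have g' : 1 / 2 < ν'.re := hσ.trans_le h'
  have h0 : 0 < ℓ + ν.re := by linarith
  have h0' : 0 < ℓ + ν'.re := by linarith
  obtain ⟨i1, f1⟩ := n_flux hl g hX
  obtain ⟨i2, f2⟩ := n_flux hl g' hX
  have hs : Ioi X ⊆ Ioi 0 := Ioi_subset_Ioi hX.le
  have c1 := (n_contDiff h0).continuousOn.mono hs
  have c2 := (n_contDiff h0').continuousOn.mono hs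
  have i3 : IntegrableOn (fun Y => ‖yF ν ℓ Y‖ * ‖yF ν' ℓ Y‖) (Ioi X) :=
    (i1.add i2).mono' ((c1.norm.mul c2.norm).aestronglyMeasurable measurableSet_Ioi)
      (Eventually.of_forall fun Y => by
        rw [Real.norm_of_nonneg (by positivity), Pi.add_apply]
        nlinarith [sq_nonneg (‖yF ν ℓ Y‖ - ‖yF ν' ℓ Y‖),
          mul_nonneg (norm_nonneg (yF ν ℓ Y)) (norm_nonneg (yF ν' ℓ Y))])
  have hn : ∀ Y : ℝ, ‖I * (ν - ν') * yF ν' ℓ Y * yF ν ℓ Y * exp (I * Y)‖ =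
      ‖ν - ν'‖ * (‖yF ν ℓ Y‖ * ‖yF ν' ℓ Y‖) := fun Y => by
    simp only [norm_mul, norm_I, norm_exp_I_mul_ofReal]
    ring
  have hw := integral_Ioi_of_hasDerivAt_of_tendsto' (a := X) (m := 0)
    (f' := fun Y : ℝ => I * (ν - ν') * yF ν' ℓ Y * yF ν ℓ Y * exp (I * Y))
    (fun Y hY => n_W_deriv h0 (hX.trans_le hY) (n_dy h0' (hX.trans_le hY))
      ((n_dp h0' (hX.trans_le hY)).congr_deriv (by ring)))
    ((i3.const_mul ‖ν - ν'‖).mono' ((((continuousOn_const.mul c2).mul c1).mul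
      (by fun_prop)).aestronglyMeasurable measurableSet_Ioi) (Eventually.of_forall fun Y => (hn Y).le))
    (by
      rw [tendsto_zero_iff_norm_tendsto_zero]
      simp only [norm_mul, norm_exp_I_mul_ofReal, mul_one]
      simpa using (((n_p0 hl (by linarith : 0 < ν'.re)).mul (n_y0 hl (by linarith : 0 < ν.re))).sub
        ((n_y0 hl (by linarith : 0 < ν'.re)).mul (n_p0 hl (by linarith : 0 < ν.re)))).norm)
  have h1 := norm_integral_le_integral_norm (μ := volume.restrict (Ioi X))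
    fun Y : ℝ => I * (ν - ν') * yF ν' ℓ Y * yF ν ℓ Y * exp (I * Y)
  simp only [hn] at h1
  rw [hw, integral_const_mul, zero_sub, norm_neg, norm_mul, norm_exp_I_mul_ofReal, mul_one,
    n_p_eq hl g hX, n_p_eq hl g' hX, show NF ν' ℓ X * yF ν' ℓ X * yF ν ℓ X -
      yF ν' ℓ X * (NF ν ℓ X * yF ν ℓ X) = -((NF ν ℓ X - NF ν' ℓ X) * (yF ν ℓ X * yF ν' ℓ X)) by ring,
    norm_neg, norm_mul, norm_mul] at h1
  have p1 := norm_pos_iff.2 (n_ne hl g hX)
  have p2 := norm_pos_iff.2 (n_ne hl g' hX)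
  have p3 := sub_pos.2 hσ
  have q1 : 0 ≤ ∫ Y in Ioi X, ‖yF ν ℓ Y‖ ^ 2 := integral_nonneg fun Y => by positivity
  have q2 : 0 ≤ ∫ Y in Ioi X, ‖yF ν' ℓ Y‖ ^ 2 := integral_nonneg fun Y => by positivity
  refine le_of_mul_le_mul_right (h1.trans ?_) (mul_pos p1 p2)
  rw [mul_div_assoc, mul_assoc]
  refine mul_le_mul_of_nonneg_left ((n_cs i1 i2 i3).trans ?_) (norm_nonneg _)
  rw [div_mul_eq_mul_div, le_div_iff₀ p3, ← Real.sqrt_sq p3.le,
    ← Real.sqrt_sq (mul_pos p1 p2).le, ← Real.sqrt_mul' _ (sq_nonneg _),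
    ← Real.sqrt_mul' _ (sq_nonneg _)]
  refine Real.sqrt_le_sqrt ?_
  rw [mul_pow, mul_mul_mul_comm _ _ (‖yF ν ℓ X‖ ^ 2), ← f1, ← f2, sq, mul_mul_mul_comm,
    mul_comm _ (σ - 1 / 2), mul_comm _ (σ - 1 / 2)]
  exact mul_le_mul (mul_le_mul_of_nonneg_right (by linarith) q1)
    (mul_le_mul_of_nonneg_right (by linarith) q2) (mul_nonneg p3.le q2)
    (mul_nonneg (by linarith) q1)

end Vale.Agent.P139
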