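import Vale.Agent.P139.N.Defs

/-!
P139 N/Int: bounds and integrability of the kernel `nK`.
`n_cpow_bd`: `norm_cpow_of_ne_zero`, `1 ≤ ‖1 + I s‖ ≤ 1 + |s|`, `abs_arg_le_pi`.
`n_wint`: `(1 + s) ^ β ≤ C exp (x s / 2)`, `integrableOn_rpow_mul_exp_neg_mul_rpow`.
-/

noncomputable section

open MeasureTheory Filter Topology Set Complex
open scoped ComplexConjugate ContDiff

namespace Vale.Agent.P139

theorem n_slit (s : ℝ) : 1 + I * (s : ℂ) ∈ slitPlane := Or.inl (by simp)

theorem n_cpow_bd (b : ℂ) (s : ℝ) :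
    ‖(1 + I * (s : ℂ)) ^ b‖ ≤ Real.exp (Real.pi * |b.im|) * (1 + |s|) ^ |b.re| := by
  have h1 : 1 ≤ ‖1 + I * (s : ℂ)‖ := by simpa using re_le_norm (1 + I * (s : ℂ))
  have h2 : ‖1 + I * (s : ℂ)‖ ≤ 1 + |s| := by simpa using norm_add_le 1 (I * (s : ℂ))
  rw [norm_cpow_of_ne_zero (slitPlane_ne_zero (n_slit s)), div_eq_inv_mul, ← Real.exp_neg]
  refine mul_le_mul (Real.exp_le_exp.2 ((neg_le_abs _).trans ?_))
    ((Real.rpow_le_rpow_of_exponent_le h1 (le_abs_self _)).trans
      (Real.rpow_le_rpow (norm_nonneg _) h2 (abs_nonneg _))) (by positivity) (by positivity)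
  rw [abs_mul]
  exact mul_le_mul_of_nonneg_right (abs_arg_le_pi _) (abs_nonneg _)

theorem n_wint {x α : ℝ} (hx : 0 < x) (hα : 0 < α) (β : ℝ) :
    IntegrableOn (fun s : ℝ => Real.exp (-(x * s)) * s ^ (α - 1) * (1 + s) ^ β) (Ioi 0) := by
  have hB : 0 < |β| + 1 := by positivity
  set ε : ℝ := x / 2 / (|β| + 1) with hε
  have hε0 : 0 < ε := by positivity
  have hi := (integrableOn_rpow_mul_exp_neg_mul_rpow (s := α - 1) (by linarith) one_pos
    (half_pos hx)).const_mul ((1 + 1 / ε) ^ (|β| + 1))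
  refine hi.mono' (ContinuousOn.aestronglyMeasurable ?_ measurableSet_Ioi)
    ((ae_restrict_mem measurableSet_Ioi).mono fun s (hs : 0 < s) => ?_)
  · refine (Continuous.continuousOn (by fun_prop)).mul (continuousOn_id.rpow_const
      fun s (hs : 0 < s) => Or.inl hs.ne') |>.mul (ContinuousOn.rpow_const (by fun_prop)
        fun s (hs : 0 < s) => Or.inl (by positivity))
  have h1 : 1 + s ≤ (1 + 1 / ε) * Real.exp (ε * s) := by
    refine le_trans ?_ (mul_le_mul_of_nonneg_left (Real.add_one_le_exp _) (by positivity))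
    have : 1 / ε * (ε * s) = s := by field_simp
    nlinarith [mul_pos hε0 hs, one_div_pos.2 hε0]
  have h2 : (1 + s) ^ β ≤ (1 + 1 / ε) ^ (|β| + 1) * Real.exp (x / 2 * s) := by
    refine (Real.rpow_le_rpow_of_exponent_le (by linarith) (by linarith [le_abs_self β])).trans
      ((Real.rpow_le_rpow (by positivity) h1 hB.le).trans_eq ?_)
    rw [Real.mul_rpow (by positivity) (by positivity), ← Real.exp_mul]
    congr 2
    rw [hε]
    field_simp
  rw [Real.norm_of_nonneg (by positivity), Real.rpow_one]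
  refine (mul_le_mul_of_nonneg_left h2 (by positivity)).trans_eq ?_
  rw [show -(x / 2) * s = -(x * s) + x / 2 * s by ring, Real.exp_add]
  ring

theorem n_K_norm (a b : ℂ) (X : ℝ) {s : ℝ} (hs : 0 < s) : ‖nK a b X s‖ ≤
    Real.exp (Real.pi * |b.im|) * (Real.exp (-(X * s)) * s ^ (a.re - 1) * (1 + s) ^ |b.re|) := by
  have h := n_cpow_bd b s
  rw [abs_of_pos hs] at h
  rw [nK, norm_mul, norm_mul, norm_exp, norm_cpow_eq_rpow_re_of_pos hs, neg_re, ofReal_re, sub_re,
    one_re]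
  refine (mul_le_mul_of_nonneg_left h (by positivity)).trans_eq ?_
  ring

theorem n_dom {x α : ℝ} (hx : 0 < x) (hα : 0 < α) (R : ℝ) : ∃ g : ℝ → ℝ, IntegrableOn g (Ioi 0) ∧
    ∀ (a b : ℂ) (X s : ℝ), x ≤ X → α ≤ a.re → a.re ≤ R → ‖b‖ ≤ R → 0 < s →
      ‖nK a b X s‖ ≤ g s := by
  refine ⟨fun s => Real.exp (Real.pi * R) * (Real.exp (-(x * s)) * s ^ (α - 1) *
    (1 + s) ^ (R + R)), (n_wint hx hα _).const_mul _, fun a b X s h1 h2 h3 h4 hs => ?_⟩
  refine (n_K_norm a b X hs).trans (mul_le_mul (Real.exp_le_exp.2 (mul_le_mul_of_nonneg_left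
    ((abs_im_le_norm b).trans h4) Real.pi_pos.le)) ?_ (by positivity) (by positivity))
  have h5 : s ^ (a.re - 1) ≤ s ^ (α - 1) * (1 + s) ^ R := by
    rw [show a.re - 1 = α - 1 + (a.re - α) by ring, Real.rpow_add hs]
    refine mul_le_mul_of_nonneg_left ((Real.rpow_le_rpow hs.le (by linarith : s ≤ 1 + s)
      (by linarith)).trans (Real.rpow_le_rpow_of_exponent_le (by linarith) (by linarith)))
      (by positivity)
  rw [Real.rpow_add (by positivity), ← mul_assoc, mul_assoc _ (s ^ (α - 1))]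
  refine mul_le_mul (mul_le_mul (Real.exp_le_exp.2 (neg_le_neg
    (mul_le_mul_of_nonneg_right h1 hs.le))) h5 (by positivity) (by positivity))
    (Real.rpow_le_rpow_of_exponent_le (by linarith) ((abs_re_le_norm b).trans h4))
    (by positivity) (by positivity)

theorem n_K_contOn (a b : ℂ) (X : ℝ) : ContinuousOn (nK a b X) (Ioi 0) := fun s (hs : 0 < s) => by
  refine ContinuousAt.continuousWithinAt (ContinuousAt.mul (ContinuousAt.mul (by fun_prop)
    (continuousAt_ofReal_cpow_const s _ (Or.inr hs.ne'))) ?_)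
  exact ContinuousAt.cpow (by fun_prop) continuousAt_const (n_slit s)

theorem n_K_meas (a b : ℂ) (X : ℝ) :
    AEStronglyMeasurable (nK a b X) (volume.restrict (Ioi 0)) :=
  (n_K_contOn a b X).aestronglyMeasurable measurableSet_Ioi

theorem n_K_int {a : ℂ} (ha : 0 < a.re) (b : ℂ) {X : ℝ} (hX : 0 < X) :
    IntegrableOn (nK a b X) (Ioi 0) := by
  obtain ⟨g, hg, h⟩ := n_dom hX ha (max a.re ‖b‖)
  exact hg.mono' (n_K_meas a b X) ((ae_restrict_mem measurableSet_Ioi).mono fun s hs =>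
    h a b X s le_rfl le_rfl (le_max_left _ _) (le_max_right _ _) hs)

end Vale.Agent.P139
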