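import Vale.Agent.P139.N.Int

/-!
P139 N/Lim: joint continuity and the limit at infinity.
`n_F_cont`: `continuousAt_of_dominated` with `n_dom` (`x = X / 2`, `α = re a / 2`,
`R = ‖a‖ + ‖b‖ + 1`); continuity in the parameters for fixed `s > 0` (`ContinuousAt.const_cpow`).
`n_F_lim`: substitute `s = t / X` (`integral_comp_mul_left_Ioi`, `mul_cpow_ofReal_nonneg`):
`X ^ a * nF a b X = ∫ t in Ioi 0, exp (-t) * t ^ (a - 1) * (1 + I * (t / X)) ^ b`; then
`tendsto_integral_filter_of_dominated_convergence` with `n_cpow_bd`, `n_wint` (`x = 1`) for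
`X ≥ 1`, and `Complex.Gamma_eq_integral`.
-/

noncomputable section

open MeasureTheory Filter Topology Set Complex
open scoped ComplexConjugate ContDiff

namespace Vale.Agent.P139

theorem n_F_cont : ContinuousOn (fun p : ℂ × ℂ × ℝ => nF p.1 p.2.1 p.2.2)
    {p | 0 < p.1.re ∧ 0 < p.2.2} := by
  rintro p ⟨ha, hX⟩
  obtain ⟨g, hg, h⟩ := n_dom (half_pos hX) (half_pos ha) (max p.1.re ‖p.2.1‖ + 1)
  have e1 : ∀ᶠ q : ℂ × ℂ × ℝ in 𝓝 p, p.2.2 / 2 ≤ q.2.2 :=
    (ContinuousAt.eventually_lt (g := fun q : ℂ × ℂ × ℝ => q.2.2) continuousAt_const (by fun_prop)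
      (half_lt_self hX)).mono fun _ => le_of_lt
  have e2 : ∀ᶠ q : ℂ × ℂ × ℝ in 𝓝 p, p.1.re / 2 ≤ q.1.re :=
    (ContinuousAt.eventually_lt (g := fun q : ℂ × ℂ × ℝ => q.1.re) continuousAt_const (by fun_prop)
      (half_lt_self ha)).mono fun _ => le_of_lt
  have e3 : ∀ᶠ q : ℂ × ℂ × ℝ in 𝓝 p, max q.1.re ‖q.2.1‖ ≤ max p.1.re ‖p.2.1‖ + 1 :=
    (ContinuousAt.eventually_lt (f := fun q : ℂ × ℂ × ℝ => max q.1.re ‖q.2.1‖) (by fun_prop)
      continuousAt_const (lt_add_one _)).mono fun _ => le_of_lt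
  refine (continuousAt_of_dominated (F := fun (q : ℂ × ℂ × ℝ) s => nK q.1 q.2.1 q.2.2 s)
    (Eventually.of_forall fun q => n_K_meas _ _ _) ?_ hg
    ((ae_restrict_mem measurableSet_Ioi).mono fun s (hs : 0 < s) => ?_)).continuousWithinAt
  · filter_upwards [e1, e2, e3] with q h1 h2 h3
    exact (ae_restrict_mem measurableSet_Ioi).mono fun s hs =>
      h _ _ _ s h1 h2 ((le_max_left _ _).trans h3) ((le_max_right _ _).trans h3) hs
  · refine ContinuousAt.mul (ContinuousAt.mul (by fun_prop) ?_) ?_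
    · exact ContinuousAt.const_cpow (by fun_prop) (Or.inl (ofReal_ne_zero.2 hs.ne'))
    · exact ContinuousAt.const_cpow (by fun_prop) (Or.inl (slitPlane_ne_zero (n_slit s)))

theorem n_F_scale (a b : ℂ) {X : ℝ} (hX : 0 < X) : (X : ℂ) ^ a * nF a b X =
    ∫ t in Ioi (0 : ℝ), (Real.exp (-t) : ℂ) * (t : ℂ) ^ (a - 1) * (1 + I * (t / X : ℝ)) ^ b := by
  have h0 : (X : ℂ) ≠ 0 := ofReal_ne_zero.2 hX.ne'
  have h := integral_comp_mul_left_Ioi (fun t : ℝ =>
    (Real.exp (-t) : ℂ) * (t : ℂ) ^ (a - 1) * (1 + I * (t / X : ℝ)) ^ b) 0 hX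
  rw [mul_zero, ← smul_right_inj hX.ne', smul_inv_smul₀ hX.ne'] at h
  rw [← h, nF, ← integral_const_mul, ← integral_smul]
  refine setIntegral_congr_fun measurableSet_Ioi fun s (hs : 0 < s) => ?_
  simp only [nK, mul_div_cancel_left₀ s hX.ne', real_smul, ofReal_exp, ofReal_neg]
  rw [ofReal_mul X s, mul_cpow_ofReal_nonneg hX.le hs.le, cpow_sub a 1 h0, cpow_one]
  field_simp

theorem n_F_lim {a : ℂ} (ha : 0 < a.re) (b : ℂ) :
    Tendsto (fun X : ℝ => (X : ℂ) ^ a * nF a b X) atTop (𝓝 (Gamma a)) := by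
  rw [Gamma_eq_integral ha, GammaIntegral]
  refine Tendsto.congr' ((eventually_gt_atTop 0).mono fun X hX => (n_F_scale a b hX).symm)
    (tendsto_integral_filter_of_dominated_convergence (fun t => Real.exp (Real.pi * |b.im|) *
      (Real.exp (-(1 * t)) * t ^ (a.re - 1) * (1 + t) ^ |b.re|)) (Eventually.of_forall fun X => ?_)
      ((eventually_ge_atTop 1).mono fun X hX =>
        (ae_restrict_mem measurableSet_Ioi).mono fun t (ht : 0 < t) => ?_)
      ((n_wint one_pos ha _).const_mul _) (Eventually.of_forall fun t => ?_))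
  · refine ContinuousOn.aestronglyMeasurable (fun t (ht : 0 < t) => ?_) measurableSet_Ioi
    refine ContinuousAt.continuousWithinAt (ContinuousAt.mul (ContinuousAt.mul (by fun_prop)
      (continuousAt_ofReal_cpow_const t _ (Or.inr ht.ne'))) ?_)
    exact ContinuousAt.cpow (by fun_prop) continuousAt_const (n_slit _)
  · have h1 : |t / X| ≤ t := by
      rw [abs_of_pos (by positivity)]
      exact div_le_self ht.le hX
    have h2 := (n_cpow_bd b (t / X)).trans (mul_le_mul_of_nonneg_left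
      (Real.rpow_le_rpow (by positivity) (add_le_add le_rfl h1) (abs_nonneg _)) (by positivity))
    rw [norm_mul, norm_mul, norm_cpow_eq_rpow_re_of_pos ht, sub_re, one_re, one_mul,
      Complex.norm_of_nonneg (Real.exp_pos _).le]
    refine (mul_le_mul_of_nonneg_left h2 (by positivity)).trans_eq ?_
    ring
  · have h1 : ContinuousAt (fun u : ℝ => (1 + I * (u : ℂ)) ^ b) 0 :=
      ContinuousAt.cpow (by fun_prop) continuousAt_const (n_slit _)
    have h2 := (h1.tendsto.comp (tendsto_const_nhds (x := t).div_atTop tendsto_id)).const_mul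
      ((Real.exp (-t) : ℂ) * (t : ℂ) ^ (a - 1))
    simpa only [ofReal_zero, mul_zero, add_zero, one_cpow, mul_one, Function.comp_def, id] using h2

end Vale.Agent.P139
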