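import Vale.Agent.P139.N.Der
import Vale.Agent.P139.N.Lim

/-!
P139 N/Lad: ladders, the differential equation, continuity and decay of `yF`.
With `a = ℓ + ν`, `b = ℓ - ν`: `Λ y = ℓ y - X ^ (ℓ + 1) nF (a + 1) b` (`n_F_deriv`,
`Real.hasDerivAt_rpow_const`); `n_up` is `n_F_ibp`, `n_down` is `n_F_shift` and `n_F_ibp`.
`n_dp`: near `X`, `Λ y = -ν y - I (ℓ - ν) yF (ν + 1)`, differentiate and use `n_down`, `n_up`.
`n_contDiff`: `nF a b` is `C^n` for all `a`, by induction (`contDiffOn_succ_iff_deriv_of_isOpen`).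
Decay: `‖X ^ ν‖ = X ^ re ν` (`norm_cpow_eq_rpow_re_of_pos`), `tendsto_rpow_neg_atTop`.
-/

noncomputable section

open MeasureTheory Filter Topology Set Complex
open scoped ComplexConjugate ContDiff

namespace Vale.Agent.P139

variable {ν : ℂ} {ℓ X : ℝ}

theorem n_F_contDiff (n : ℕ) : ∀ a b : ℂ, 0 < a.re → ContDiffOn ℝ n (nF a b) (Ioi 0) := by
  induction n with
  | zero => exact fun a b ha => contDiffOn_zero.2 fun X hX =>
      (n_F_deriv ha b hX).continuousAt.continuousWithinAt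
  | succ n ih =>
    intro a b ha
    rw [Nat.cast_succ, contDiffOn_succ_iff_deriv_of_isOpen isOpen_Ioi]
    refine ⟨fun X hX => (n_F_deriv ha b hX).differentiableAt.differentiableWithinAt, by simp,
      (ih (a + 1) b (by simp; linarith)).neg.congr fun X hX => (n_F_deriv ha b hX).deriv⟩

theorem n_y_deriv (h : 0 < ℓ + ν.re) (hX : 0 < X) : HasDerivAt (yF ν ℓ)
    ((ℓ * yF ν ℓ X - ((X ^ ℓ : ℝ) : ℂ) * (X * nF (ℓ + ν + 1) (ℓ - ν) X)) / X) X := by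
  have h1 := ((Real.hasDerivAt_rpow_const (p := ℓ) (Or.inl hX.ne')).ofReal_comp).mul
    (n_F_deriv (a := ℓ + ν) (by simpa using h) (ℓ - ν) hX)
  refine h1.congr_deriv ?_
  have h0 : (X : ℂ) ≠ 0 := ofReal_ne_zero.2 hX.ne'
  rw [n_yF_eq, Real.rpow_sub_one hX.ne']
  push_cast
  field_simp
  ring

theorem n_lam_eq (h : 0 < ℓ + ν.re) (hX : 0 < X) : Lam (yF ν ℓ) X =
    ℓ * yF ν ℓ X - ((X ^ ℓ : ℝ) : ℂ) * (X * nF (ℓ + ν + 1) (ℓ - ν) X) := by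
  rw [Lam, (n_y_deriv h hX).deriv, mul_div_cancel₀ _ (ofReal_ne_zero.2 hX.ne')]

theorem n_yF_succ : yF (ν + 1) ℓ X = ((X ^ ℓ : ℝ) : ℂ) * nF (ℓ + ν + 1) (ℓ - ν - 1) X := by
  rw [n_yF_eq, add_assoc, sub_sub]

theorem n_contDiff (h : 0 < ℓ + ν.re) : ContDiffOn ℝ ∞ (yF ν ℓ) (Ioi 0) := by
  have h1 : ContDiffOn ℝ ∞ (fun X : ℝ => X ^ ℓ) (Ioi 0) :=
    contDiffOn_id.rpow_const_of_ne fun X (hX : 0 < X) => hX.ne'
  exact (ofRealCLM.contDiff.comp_contDiffOn h1).mul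
    (contDiffOn_infty.2 fun n => n_F_contDiff n _ _ (by simpa using h))

theorem n_dy (h : 0 < ℓ + ν.re) (hX : 0 < X) :
    HasDerivAt (yF ν ℓ) (Lam (yF ν ℓ) X / X) X := by
  rw [n_lam_eq h hX]
  exact n_y_deriv h hX

theorem n_up (h : 0 < ℓ + ν.re) (hX : 0 < X) :
    Lam (yF ν ℓ) X + ν * yF ν ℓ X = -I * (ℓ - ν) * yF (ν + 1) ℓ X := by
  rw [n_lam_eq h hX, n_F_ibp (by simpa using h) _ hX, n_yF_succ, n_yF_eq]
  ring

theorem n_down (h : 0 < ℓ + ν.re) (hX : 0 < X) :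
    (ν - I * X) * yF (ν + 1) ℓ X - Lam (yF (ν + 1) ℓ) X = -I * (ν + ℓ) * yF ν ℓ X := by
  have h1 := n_F_ibp (a := ℓ + ν) (by simpa using h) (ℓ - ν) hX
  have h2 := n_F_shift (a := ℓ + ν + 1) (by simp; linarith) (ℓ - ν - 1) hX
  rw [sub_add_cancel] at h2
  rw [n_lam_eq (by simp; linarith) hX, n_yF_succ, n_yF_eq, ← add_assoc, ← sub_sub]
  linear_combination ((X ^ ℓ : ℝ) : ℂ) * (-I * h1 + I * X * h2 +
    (X * nF (ℓ + ν + 1 + 1) (ℓ - ν - 1) X - (ℓ - ν) * nF (ℓ + ν + 1) (ℓ - ν - 1) X) * I_mul_I)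

theorem n_dp (h : 0 < ℓ + ν.re) (hX : 0 < X) : HasDerivAt (Lam (yF ν ℓ))
    ((ℓ ^ 2 * yF ν ℓ X - I * X * (Lam (yF ν ℓ) X + ν * yF ν ℓ X)) / X) X := by
  have h' : 0 < ℓ + (ν + 1).re := by simp; linarith
  have h1 := ((n_dy h' hX).const_mul (-I * (ℓ - ν))).sub ((n_dy h hX).const_mul ν)
  refine (h1.congr_deriv ?_).congr_of_eventuallyEq 
    (Filter.mem_of_superset (Ioi_mem_nhds hX) fun Y hY => ?_)
  · rw [← mul_div_assoc, ← mul_div_assoc, ← sub_div]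
    congr 1
    linear_combination I * (ℓ - ν) * n_down h hX - (ν - I * X) * n_up h hX -
      (ℓ - ν) * (ν + ℓ) * yF ν ℓ X * I_mul_I
  · exact eq_sub_of_add_eq (n_up h hY)

theorem n_ode (h : 0 < ℓ + ν.re) (hX : 0 < X) : Lam (Lam (yF ν ℓ)) X - ℓ ^ 2 * yF ν ℓ X +
    I * X * (Lam (yF ν ℓ) X + ν * yF ν ℓ X) = 0 := by
  rw [Lam, (n_dp h hX).deriv, mul_div_cancel₀ _ (ofReal_ne_zero.2 hX.ne')]
  ring

theorem n_tendsto (h : 0 < ℓ + ν.re) :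
    Tendsto (fun X : ℝ => (X : ℂ) ^ ν * yF ν ℓ X) atTop (𝓝 (Gamma (ℓ + ν))) := by
  refine (n_F_lim (a := ℓ + ν) (by simpa using h) (ℓ - ν)).congr'
    ((eventually_gt_atTop 0).mono fun X hX => ?_)
  simp only
  rw [n_yF_eq, cpow_add _ _ (ofReal_ne_zero.2 hX.ne'), ofReal_cpow hX.le]
  ring

theorem n_continuous : ContinuousOn (fun p : ℂ × ℝ => yF p.1 ℓ p.2)
    {p | 0 < ℓ + p.1.re ∧ 0 < p.2} := by
  refine ContinuousOn.mul (continuous_ofReal.comp_continuousOn (continuousOn_snd.rpow_const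
    fun p hp => Or.inl hp.2.ne')) ?_
  exact n_F_cont.comp (f := fun p : ℂ × ℝ => ((ℓ : ℂ) + p.1, (ℓ : ℂ) - p.1, p.2)) (by fun_prop)
    fun p hp => ⟨by simpa using hp.1, hp.2⟩

theorem n_pow0 (h : 0 < ℓ + ν.re) {t : ℝ} (ht : t < ν.re) :
    Tendsto (fun X : ℝ => X ^ t * ‖yF ν ℓ X‖) atTop (𝓝 0) := by
  have h1 := (tendsto_rpow_neg_atTop (sub_pos.2 ht)).mul (n_tendsto h).norm
  rw [zero_mul] at h1
  refine h1.congr' ((eventually_gt_atTop 0).mono fun X hX => ?_)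
  simp only
  rw [norm_mul, norm_cpow_eq_rpow_re_of_pos hX, ← mul_assoc, ← Real.rpow_add hX]
  congr 2
  ring

theorem n_y0 (hl : 0 ≤ ℓ) (h : 0 < ν.re) : Tendsto (yF ν ℓ) atTop (𝓝 0) := by
  have h1 := n_pow0 (ℓ := ℓ) (by linarith) h
  simp only [Real.rpow_zero, one_mul] at h1
  exact tendsto_zero_iff_norm_tendsto_zero.2 h1

theorem n_p0 (hl : 0 ≤ ℓ) (h : 0 < ν.re) : Tendsto (Lam (yF ν ℓ)) atTop (𝓝 0) := by
  have h1 := ((n_y0 (ν := ν + 1) hl (by simp; linarith)).const_mul (-I * (ℓ - ν))).sub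
    ((n_y0 hl h).const_mul ν)
  rw [mul_zero, mul_zero, sub_zero] at h1
  exact h1.congr' ((eventually_gt_atTop 0).mono fun X hX =>
    (eq_sub_of_add_eq (n_up (by linarith) hX)).symm)

theorem n_xy0 (hl : 0 ≤ ℓ) (h : 1 / 2 < ν.re) :
    Tendsto (fun X : ℝ => X * ‖yF ν ℓ X‖ ^ 2) atTop (𝓝 0) := by
  have h1 := (n_pow0 (ℓ := ℓ) (by linarith) h).pow 2
  rw [zero_pow two_ne_zero] at h1
  refine h1.congr' ((eventually_gt_atTop 0).mono fun X hX => ?_)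
  simp only
  rw [mul_pow, ← Real.sqrt_eq_rpow, Real.sq_sqrt hX.le]

end Vale.Agent.P139
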