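import Vale.Agent.P139.N.Rec

/-!
P139 N/Ric: Riccati arguments; `α = re N ≤ 0`, `β = im N + Y / 2 ≥ 0`.
`n_ric`: quotient rule, `n_p_eq`. `n_neg`: if `-ℓ/2 < α X` then the barrier
`f Y = α X + (Y - X) ℓ² / 21` stays below `α` on `[X, X + 1]`
(`image_le_of_deriv_right_lt_deriv_boundary`: at a touching point `α ∈ [-ℓ/2, 0]`, so
`α' ≥ (ℓ²/4) / 5`), and `f (X + 1) > 0`, contradiction with `n_re`.
`n_low`: `T = 21 M / θ`, `c = √(θ/2) exp (-M T)`, `L = M ρ`, `τ = T / ρ ≤ 1`. On `[X, X + τ]`,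
`β' ≤ L β` so `β Y * exp (-L (Y - X))` is antitone and `β Y ≤ β X * exp (M T)`. If `β X < c ρ` then
`β² ≤ θ ρ² / 2`, `α' ≤ -θ ρ² / 10`, so `α (X + τ) ≤ α X - 2.1 L < -L`, contradiction.
-/

noncomputable section

open MeasureTheory Filter Topology Set Complex
open scoped ComplexConjugate ContDiff

namespace Vale.Agent.P139

variable {ν : ℂ} {ℓ X : ℝ}

theorem n_ric (hl : 0 ≤ ℓ) (h : 1 / 2 < ν.re) (hX : 0 < X) : HasDerivAt (NF ν ℓ)
    ((ℓ ^ 2 - I * X * (NF ν ℓ X + ν) - NF ν ℓ X ^ 2) / X) X := by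
  have h0 : 0 < ℓ + ν.re := by linarith
  refine ((n_dp h0 hX).div (n_dy h0 hX) (n_ne hl h hX)).congr_deriv ?_
  have h1 := n_ne hl h hX
  have h2 : (X : ℂ) ≠ 0 := ofReal_ne_zero.2 hX.ne'
  rw [n_p_eq hl h hX]
  field_simp

theorem n_ric_re (hl : 0 ≤ ℓ) (h : 1 / 2 < ν.re) (hX : 0 < X) :
    HasDerivAt (fun Y => (NF ν ℓ Y).re) ((ℓ ^ 2 + X * ν.im - X ^ 2 / 4 +
      ((NF ν ℓ X).im + X / 2) ^ 2 - (NF ν ℓ X).re ^ 2) / X) X := by
  refine (n_d_re (n_ric hl h hX)).congr_deriv ?_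
  rw [div_ofReal_re, ← ofReal_pow, sq (NF ν ℓ X)]
  simp only [add_im, mul_im, mul_re, sub_re, add_re, ofReal_re, ofReal_im, I_re, I_im]
  ring

theorem n_ric_im (hl : 0 ≤ ℓ) (h : 1 / 2 < ν.re) (hX : 0 < X) :
    HasDerivAt (fun Y => (NF ν ℓ Y).im + Y / 2)
      ((-2 * (NF ν ℓ X).re * ((NF ν ℓ X).im + X / 2) - X * (ν.re - 1 / 2)) / X) X := by
  refine ((n_d_im (n_ric hl h hX)).add ((hasDerivAt_id X).div_const 2)).congr_deriv ?_
  have := hX.ne'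
  rw [div_ofReal_im, ← ofReal_pow, sq (NF ν ℓ X)]
  simp only [add_im, mul_im, mul_re, sub_im, add_re, ofReal_re, ofReal_im, I_re, I_im]
  field_simp
  ring

theorem n_neg (hl : 11 ≤ ℓ) (h : 1 / 2 < ν.re) (hX : X ∈ Icc (2 : ℝ) 4)
    (hΩ : 5 * |ν.im| + 7 ≤ ℓ ^ 2 / 2) : (NF ν ℓ X).re ≤ -ℓ / 2 := by
  by_contra h0
  push Not at h0
  have hl0 : 0 ≤ ℓ := by linarith
  have hd : ∀ Y, HasDerivAt (fun Y => (NF ν ℓ X).re + (Y - X) * (ℓ ^ 2 / 21)) (ℓ ^ 2 / 21) Y :=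
    fun Y => ((((hasDerivAt_id Y).sub_const X).mul_const (ℓ ^ 2 / 21)).const_add _).congr_deriv
      (one_mul _)
  have h1 := image_le_of_deriv_right_lt_deriv_boundary' (a := X) (b := X + 1)
    (fun Y _ => (hd Y).continuousAt.continuousWithinAt) (fun Y _ => (hd Y).hasDerivWithinAt)
    (B := fun Y => (NF ν ℓ Y).re) (by simp)
    (fun Y hY => (n_ric_re hl0 h (by linarith [hX.1, hY.1])).continuousAt.continuousWithinAt)
    (fun Y hY => (n_ric_re hl0 h (by linarith [hX.1, hY.1])).hasDerivWithinAt)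
    (fun Y hY he => ?_) (right_mem_Icc.2 (by linarith))
  · have h2 := n_re hl0 h (by linarith [hX.1] : 0 < X + 1)
    nlinarith
  have hY0 : 0 < Y := by linarith [hX.1, hY.1]
  have hY5 : Y ≤ 5 := by linarith [hX.2, hY.2]
  have h2 := n_re hl0 h hY0
  have h3 : -ℓ / 2 ≤ (NF ν ℓ Y).re := by
    nlinarith [mul_nonneg (sub_nonneg.2 hY.1) (sq_nonneg ℓ)]
  have h4 : (NF ν ℓ Y).re ^ 2 ≤ ℓ ^ 2 / 4 := by nlinarith
  have h5 : -(5 * |ν.im|) ≤ Y * ν.im := by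
    nlinarith [mul_le_mul_of_nonneg_left (neg_abs_le ν.im) hY0.le,
      mul_le_mul_of_nonneg_right hY5 (abs_nonneg ν.im)]
  rw [lt_div_iff₀ hY0]
  nlinarith [sq_nonneg ((NF ν ℓ Y).im + Y / 2), mul_le_mul_of_nonneg_left hY5 (sq_nonneg ℓ),
    pow_le_pow_left₀ hY0.le hY5 2]

theorem n_anti_on {f f' : ℝ → ℝ} {a b : ℝ} (hd : ∀ Y ∈ Icc a b, HasDerivAt f (f' Y) Y)
    (h0 : ∀ Y ∈ Icc a b, f' Y ≤ 0) {Y : ℝ} (hY : Y ∈ Icc a b) : f Y ≤ f a :=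
  antitoneOn_of_deriv_nonpos (convex_Icc a b)
    (fun Y hY => (hd Y hY).continuousAt.continuousWithinAt)
    (fun Y hY => (hd Y (interior_subset hY)).differentiableAt.differentiableWithinAt)
    (fun Y hY => by
      rw [(hd Y (interior_subset hY)).deriv]
      exact h0 Y (interior_subset hY)) (left_mem_Icc.2 (hY.1.trans hY.2)) hY hY.1

theorem n_low {θ M : ℝ} (hθ : 0 < θ) (hM : 0 < M) : ∃ c T : ℝ, 0 < c ∧ 0 < T ∧
    ∀ (ν : ℂ) (ℓ X ρ : ℝ), 0 ≤ ℓ → 1 / 2 < ν.re → X ∈ Icc (2 : ℝ) 4 → T ≤ ρ →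
      (∀ Y ∈ Icc X 5, ‖NF ν ℓ Y‖ ≤ M * ρ) →
      (∀ Y ∈ Icc X 5, θ * ρ ^ 2 ≤ Y ^ 2 / 4 - Y * ν.im - ℓ ^ 2) →
        c * ρ ≤ (NF ν ℓ X).im + X / 2 := by
  refine ⟨√(θ / 2) * Real.exp (-(M * (21 * M / θ))), 21 * M / θ, by positivity, by positivity,
    fun ν ℓ X ρ hl h hX hT h1 h2 => ?_⟩
  set T := 21 * M / θ with hT'
  have hT0 : 0 < T := by positivity
  have hρ : 0 < ρ := hT0.trans_le hT
  have hτ : T / ρ ≤ 1 := (div_le_one hρ).2 hT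
  have hτ0 : 0 < T / ρ := by positivity
  have hs : Icc X (X + T / ρ) ⊆ Icc X 5 := Icc_subset_Icc_right (by linarith [hX.2])
  have hp : ∀ Y ∈ Icc X (X + T / ρ), 0 < Y := fun Y hY => by linarith [hX.1, hY.1]
  have ha : ∀ Y ∈ Icc X (X + T / ρ), |(NF ν ℓ Y).re| ≤ M * ρ := fun Y hY =>
    (abs_re_le_norm _).trans (h1 Y (hs hY))
  have hb : ∀ Y ∈ Icc X (X + T / ρ), 0 ≤ (NF ν ℓ Y).im + Y / 2 := fun Y hY => by
    linarith [n_im hl h (hp Y hY)]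
  by_contra h0
  push Not at h0
  have h3 : ∀ Y ∈ Icc X (X + T / ρ), (NF ν ℓ Y).im + Y / 2 ≤ √(θ / 2) * ρ := fun Y hY => by
    have h4 := n_anti_on (f := fun Y => ((NF ν ℓ Y).im + Y / 2) * Real.exp (-(M * ρ) * (Y - X)))
      (fun Y hY => (n_ric_im hl h (hp Y hY)).mul
        (((hasDerivAt_id Y).sub_const X).const_mul (-(M * ρ))).exp) (fun Y hY => ?_) hY
    · simp only [sub_self, mul_zero, Real.exp_zero, mul_one] at h4
      have h5 : Real.exp (-(M * T)) ≤ Real.exp (-(M * ρ) * (Y - X)) := by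
        refine Real.exp_le_exp.2 ?_
        have h6 : ρ * (Y - X) ≤ T := by
          rw [mul_comm]
          exact (le_div_iff₀ hρ).1 (by linarith [hY.2])
        nlinarith
      refine le_of_mul_le_mul_right ?_ (Real.exp_pos (-(M * T)))
      nlinarith [mul_le_mul_of_nonneg_left h5 (hb Y hY)]
    · have h5 : (-2 * (NF ν ℓ Y).re * ((NF ν ℓ Y).im + Y / 2) - Y * (ν.re - 1 / 2)) / Y ≤
          M * ρ * ((NF ν ℓ Y).im + Y / 2) := by
        rw [div_le_iff₀ (hp Y hY)]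
        have h6 := mul_le_mul_of_nonneg_right (neg_le.2 (abs_le.1 (ha Y hY)).1) (hb Y hY)
        have h7 := mul_le_mul_of_nonneg_left (hX.1.trans hY.1)
          (mul_nonneg (mul_pos hM hρ).le (hb Y hY))
        nlinarith [mul_pos (hp Y hY) (sub_pos.2 h)]
      simp only [id, mul_one]
      nlinarith [mul_le_mul_of_nonneg_right h5 (Real.exp_pos (-(M * ρ) * (Y - X))).le]
  have h4 := n_anti_on (f := fun Y => (NF ν ℓ Y).re + θ * ρ ^ 2 / 10 * Y)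
    (fun Y hY => (n_ric_re hl h (hp Y hY)).add ((hasDerivAt_id Y).const_mul (θ * ρ ^ 2 / 10)))
    (fun Y hY => ?_) (right_mem_Icc.2 (by linarith))
  · have h5 := abs_le.1 (ha X (left_mem_Icc.2 (by linarith)))
    have h6 := abs_le.1 (ha _ (right_mem_Icc.2 (by linarith)))
    have h7 : θ * ρ ^ 2 / 10 * (T / ρ) = 21 / 10 * (M * ρ) := by
      rw [hT']
      field_simp
    simp only [mul_add, h7] at h4
    linarith [mul_pos hM hρ]
  have h5 := pow_le_pow_left₀ (hb Y hY) (h3 Y hY) 2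
  rw [mul_pow, Real.sq_sqrt (by positivity)] at h5
  rw [mul_one, ← le_neg_iff_add_nonpos_right, div_le_iff₀ (hp Y hY)]
  have h6 := mul_le_mul_of_nonneg_left (hs hY).2 (by positivity : 0 ≤ θ * ρ ^ 2)
  nlinarith [h2 Y (hs hY), sq_nonneg (NF ν ℓ Y).re]

end Vale.Agent.P139
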