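import Vale.Agent.P139.N.Up
import Vale.Agent.P139.N.Ric

/-!
P139 N/Mor: the estimate at high levels.
`n_upper` with `‖ν‖ ≤ |σ1| + |Ω|` and `√(ℓ² + |Ω| + |σ1| + 1) ≤ ℓ + √|Ω| + √(|σ1| + 1)` gives the
first part with `C₁ = 12 √(|σ1| + 1) + 12` on `[2, 5]`. Second part: `ρ = √|Ω| ≥ 1`, `ℓ ≤ 2 ρ`,
`n_low` with `M = 4 C₁` and `2 θ / (1 + θ)`; `C = max` of `C₁`, `1`, `T²`, `(4 / c)²`.
-/

noncomputable section

open MeasureTheory Filter Topology Set Complex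
open scoped ComplexConjugate ContDiff

namespace Vale.Agent.P139

theorem n_mor (σ1 : ℝ) {θ : ℝ} (hθ : 0 < θ) : ∃ C c : ℝ, 0 < c ∧ ∀ (ν : ℂ) (ℓ : ℝ), 1 ≤ ℓ →
    ν.re ∈ Icc (3 / 2) σ1 → ∀ X ∈ Icc (2 : ℝ) 4, ‖NF ν ℓ X‖ ≤ C * (ℓ + √|ν.im| + 1) ∧
      (C ≤ -ν.im → (1 + θ) * ℓ ^ 2 ≤ X * -ν.im → c * √|ν.im| ≤ (NF ν ℓ X).im) := by
  set C1 : ℝ := 12 * √(|σ1| + 1) + 12 with hC1
  have hC12 : 12 ≤ C1 := by linarith [Real.sqrt_nonneg (|σ1| + 1)]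
  have key : ∀ (ν : ℂ) (ℓ : ℝ), 1 ≤ ℓ → ν.re ∈ Icc (3 / 2) σ1 → ∀ X ∈ Icc (2 : ℝ) 5,
      ‖NF ν ℓ X‖ ≤ C1 * (ℓ + √|ν.im| + 1) := fun ν ℓ hl hν X hX => by
    refine (n_upper (by linarith) (by linarith [hν.1]) hX).trans ?_
    have h1 := norm_le_abs_re_add_abs_im ν
    rw [abs_of_nonneg (by linarith [hν.1])] at h1
    have h2 := Real.sqrt_nonneg |ν.im|
    have h3 := Real.sqrt_nonneg (|σ1| + 1)
    have h4 : √(ℓ ^ 2 + ‖ν‖ + 1) ≤ ℓ + √|ν.im| + √(|σ1| + 1) := by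
      refine Real.sqrt_le_iff.2 ⟨by linarith, ?_⟩
      nlinarith [Real.sq_sqrt (abs_nonneg ν.im), Real.sq_sqrt (by positivity : 0 ≤ |σ1| + 1),
        hν.2, le_abs_self σ1, mul_nonneg h2 h3]
    nlinarith
  obtain ⟨c, T, hc, hT, hlow⟩ := n_low (θ := 2 * θ / (1 + θ)) (M := 4 * C1) (by positivity)
    (by linarith)
  refine ⟨max C1 ((1 + T + 4 / c) ^ 2), c / 2, half_pos hc, fun ν ℓ hl hν X hX =>
    ⟨(key ν ℓ hl hν X ⟨hX.1, by linarith [hX.2]⟩).trans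
      (mul_le_mul_of_nonneg_right (le_max_left _ _) (by positivity)), fun h1 h2 => ?_⟩⟩
  have h3 : (1 + T + 4 / c) ^ 2 ≤ -ν.im := (le_max_right _ _).trans h1
  have h4 : |ν.im| = -ν.im := abs_of_nonpos (by nlinarith)
  have h5 : 1 + T + 4 / c ≤ √|ν.im| := Real.le_sqrt_of_sq_le (h4 ▸ h3)
  have h6 : √|ν.im| ^ 2 = -ν.im := by rw [Real.sq_sqrt (abs_nonneg _), h4]
  have h7 : 0 < 4 / c := by positivity
  set ρ := √|ν.im|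
  rw [← h6] at h2
  have h8 : ℓ ≤ 2 * ρ := by
    refine le_of_sq_le_sq ?_ (by linarith)
    nlinarith [mul_le_mul_of_nonneg_right hX.2 (sq_nonneg ρ), mul_nonneg hθ.le (sq_nonneg ℓ)]
  have h9 := hlow ν ℓ X ρ (by linarith) (by linarith [hν.1]) hX (by linarith)
    (fun Y hY => (key ν ℓ hl hν Y ⟨hX.1.trans hY.1, hY.2⟩).trans (by nlinarith)) fun Y hY => by
      rw [div_mul_eq_mul_div, div_le_iff₀ (by positivity), ← neg_neg ν.im, ← h6]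
      nlinarith [mul_le_mul_of_nonneg_right hY.1 (sq_nonneg ρ), mul_nonneg hθ.le (sq_nonneg Y),
        mul_le_mul_of_nonneg_right (hX.1.trans hY.1) (mul_nonneg hθ.le (sq_nonneg ρ)), sq_nonneg Y]
  have h10 : 4 ≤ ρ * c := (div_le_iff₀ hc).1 (by linarith)
  linarith [hX.2]

end Vale.Agent.P139
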