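import Vale.Agent.P139.N.Pair

/-!
P139 N/Rec: the continued fraction and the sign of the real part.
`n_rec`: `n_down` gives `(ν - Ñ) y₁ = -I (ν + ℓ) y ≠ 0`, then `n_up`.
`n_re`: suppose `0 < re (NF ν)`. By `n_mob_re`, `0 < re (NF (ν + j))` for all `j : ℕ` (induction).
Then `n_H` gives `‖N_j‖² ≤ ℓ² + 2 |Ω| ‖N_j‖`, so `‖N_j‖ ≤ K = 2 |Ω| + ℓ`. By `n_mob_sub`,
`‖N_j - (N_(j+1) + I X)‖ ≤ ((K + X)² + ℓ²) / (j - K) ≤ X / 2` for `j ≥ j₀`
(the norm of `ν + j - Ñ` is at least its real part). So `im N_(j+1) ≤ im N_j - X / 2` for `j ≥ j₀`,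
`im N_(j₀ + n) ≤ K - n X / 2`, contradiction with `n_im`.
-/

noncomputable section

open MeasureTheory Filter Topology Set Complex
open scoped ComplexConjugate ContDiff

namespace Vale.Agent.P139

variable {ν : ℂ} {ℓ X : ℝ}

theorem n_rec (hl : 0 ≤ ℓ) (h : 1 / 2 < ν.re) (hX : 0 < X) :
    ν - (NF (ν + 1) ℓ X + I * X) ≠ 0 ∧ NF ν ℓ X = nmob ν ℓ X (NF (ν + 1) ℓ X) := by
  have h' : 1 / 2 < (ν + 1).re := by simp; linarith
  have h1 := n_up (ℓ := ℓ) (ν := ν) (by linarith) hX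
  have h2 := n_down (ℓ := ℓ) (ν := ν) (by linarith) hX
  rw [n_p_eq hl h hX] at h1
  rw [n_p_eq hl h' hX] at h2
  have h3 : ν - (NF (ν + 1) ℓ X + I * X) ≠ 0 := fun h0 => by
    have h4 : ν + ℓ ≠ 0 := fun h5 => by
      have := congrArg re h5
      simp at this
      linarith
    refine mul_ne_zero (mul_ne_zero (neg_ne_zero.2 I_ne_zero) h4) (n_ne hl h hX) ?_
    linear_combination -h2 + yF (ν + 1) ℓ X * h0
  refine ⟨h3, ?_⟩
  rw [nmob, eq_div_iff h3]
  refine mul_right_cancel₀ (n_ne hl h hX) ?_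
  linear_combination (ν - (NF (ν + 1) ℓ X + I * X)) * h1 - I * (ℓ - ν) * h2 +
    (ℓ - ν) * (ν + ℓ) * yF ν ℓ X * I_mul_I

theorem n_quad {x a b : ℝ} (ha : 0 ≤ a) (hb : 0 ≤ b) (h : x ^ 2 ≤ b ^ 2 + a * x) :
    x ≤ a + b := by
  by_contra h1
  push Not at h1
  nlinarith

theorem n_re (hl : 0 ≤ ℓ) (h : 1 / 2 < ν.re) (hX : 0 < X) : (NF ν ℓ X).re ≤ 0 := by
  by_contra h0
  push Not at h0
  have hj : ∀ j : ℕ, 1 / 2 < (ν + j).re := fun j => by
    simp only [add_re, natCast_re]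
    linarith [j.cast_nonneg (α := ℝ)]
  have hs : ∀ j : ℕ, ν + ((j + 1 : ℕ) : ℂ) = ν + j + 1 := fun j => by rw [Nat.cast_succ, add_assoc]
  have h1 : ∀ j : ℕ, 0 < (NF (ν + j) ℓ X).re := fun j => by
    induction j with
    | zero => simpa using h0
    | succ j ih =>
      obtain ⟨h2, h3⟩ := n_rec hl (hj j) hX
      have h4 := n_mob_re (ℓ := ℓ) h2
      rw [← h3] at h4
      have h6 := mul_pos ih (pow_pos (norm_pos_iff.2 h2) 2)
      rw [hs]
      refine pos_of_mul_pos_right (a := ‖ν + j‖ ^ 2 + ℓ ^ 2) ?_ (by positivity)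
      have h7 : 0 ≤ (ν + j).re * (‖NF (ν + j + 1) ℓ X + I * X‖ ^ 2 + ℓ ^ 2) :=
        mul_nonneg (by linarith [hj j]) (by positivity)
      linarith
  set K : ℝ := 2 * |ν.im| + ℓ with hK
  have h2 : ∀ j : ℕ, ‖NF (ν + j) ℓ X‖ ≤ K := fun j => by
    refine n_quad (by positivity) hl ?_
    have h3 := n_H hl (hj j) hX
    simp only [mul_re, conj_re, conj_im, add_im, natCast_im, add_zero] at h3
    have h4 := mul_pos (by linarith [hj j] : 0 < (ν + j).re) (h1 j)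
    have h5 := neg_abs_le (ν.im * (NF (ν + j) ℓ X).im)
    rw [abs_mul] at h5
    have h6 := mul_le_mul_of_nonneg_left (abs_im_le_norm (NF (ν + j) ℓ X)) (abs_nonneg ν.im)
    linarith
  obtain ⟨j0, hj0⟩ := exists_nat_ge (K + 1 + ((K + X) ^ 2 + ℓ ^ 2) / (X / 2))
  have h3 : ∀ j : ℕ, j0 ≤ j → (NF (ν + (j + 1 : ℕ)) ℓ X).im ≤ (NF (ν + j) ℓ X).im - X / 2 := by
    intro j hjj
    obtain ⟨h4, h5⟩ := n_rec hl (hj j) hX
    have h6 := n_mob_sub (ℓ := ℓ) h4
    have h7 := h2 (j + 1)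
    rw [hs] at h7 ⊢
    rw [← h5] at h6
    have h8 : ‖NF (ν + j + 1) ℓ X + I * X‖ ≤ K + X :=
      (norm_add_le _ _).trans (add_le_add h7 (by simp [abs_of_pos hX]))
    have h9 : ((K + X) ^ 2 + ℓ ^ 2) / (X / 2) + 1 ≤ ‖ν + j - (NF (ν + j + 1) ℓ X + I * X)‖ := by
      refine le_trans ?_ (re_le_norm _)
      have := (re_le_norm _).trans h7
      have := (Nat.cast_le (α := ℝ)).2 hjj
      simp only [sub_re, add_re, natCast_re, mul_re, I_re, I_im, ofReal_re, ofReal_im]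
      linarith
    have h10 : ‖NF (ν + j) ℓ X - (NF (ν + j + 1) ℓ X + I * X)‖ ≤ X / 2 := by
      rw [h6, norm_div, div_le_iff₀ (norm_pos_iff.2 h4)]
      refine (norm_sub_le _ _).trans (le_trans ?_ (mul_le_mul_of_nonneg_left h9 (half_pos hX).le))
      rw [mul_add, mul_div_cancel₀ _ (half_pos hX).ne', norm_pow, norm_pow, norm_real,
        Real.norm_eq_abs, sq_abs]
      linarith [pow_le_pow_left₀ (norm_nonneg _) h8 2]
    have h11 := (neg_le_abs _).trans ((abs_im_le_norm _).trans h10)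
    simp only [sub_im, add_im, mul_im, I_re, I_im, ofReal_re, ofReal_im] at h11
    linarith
  have h4 : ∀ n : ℕ, (NF (ν + (j0 + n : ℕ)) ℓ X).im ≤ K - n * (X / 2) := fun n => by
    induction n with
    | zero => simpa using (le_abs_self _).trans ((abs_im_le_norm _).trans (h2 j0))
    | succ n ih =>
      have := h3 (j0 + n) (Nat.le_add_right _ _)
      rw [← add_assoc, Nat.cast_succ n]
      linarith
  obtain ⟨n, hn⟩ := exists_nat_gt (K / (X / 2) + 1)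
  have h5 := n_im hl (hj (j0 + n)) hX
  have h6 := mul_lt_mul_of_pos_right hn (half_pos hX)
  rw [add_mul, div_mul_cancel₀ _ (half_pos hX).ne'] at h6
  linarith [h4 n]

end Vale.Agent.P139
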