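import Vale.Agent.P139.N.Rec

/-!
P139 N/Up: upper bound for `NF` (Landau-Kolmogorov argument).
`n_anti`: `‖y‖ ^ 2` is antitone (`n_sq_deriv`, `n_pc_eq`, `n_re`).
`n_upper`: let `S = ℓ² + ‖ν‖ + 1`, `τ = 1 / √S ≤ 1`, `Y₀ = ‖y X‖ > 0`, `q Y = p Y + I Y y Y`. Then
`q' = (ℓ² - I Y ν + I Y) y / Y` has norm `≤ S Y₀` on `[X, X + τ]`, so `‖q Y - q X‖ ≤ S Y₀ τ`
(`norm_image_sub_le_of_norm_deriv_le_segment'` or `Convex.norm_image_sub_le_of_norm_hasDerivWithin_le`).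
`g Y = Y y Y - Y q X` has derivative `q Y - q X + (1 - I Y) y Y` of norm `≤ S Y₀ τ + 7 Y₀`. So
`τ ‖q X‖ ≤ 11 Y₀ + S Y₀ τ² + 7 Y₀ τ`, and `p X = q X - I X y X`.
-/

noncomputable section

open MeasureTheory Filter Topology Set Complex
open scoped ComplexConjugate ContDiff

namespace Vale.Agent.P139

variable {ν : ℂ} {ℓ X : ℝ}

theorem n_anti (hl : 0 ≤ ℓ) (h : 1 / 2 < ν.re) (hX : 0 < X) {Y : ℝ} (hY : X ≤ Y) :
    ‖yF ν ℓ Y‖ ≤ ‖yF ν ℓ X‖ := by
  have h0 : 0 < ℓ + ν.re := by linarith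
  have hd : ∀ Z ∈ Ici X, HasDerivAt (fun Y => ‖yF ν ℓ Y‖ ^ 2) _ Z := fun Z hZ =>
    n_sq_deriv h0 (hX.trans_le hZ)
  refine le_of_sq_le_sq ?_ (norm_nonneg _)
  refine antitoneOn_of_deriv_nonpos (convex_Ici X)
    (fun Z hZ => (hd Z hZ).continuousAt.continuousWithinAt)
    (fun Z hZ => (hd Z (interior_subset hZ)).differentiableAt.differentiableWithinAt)
    (fun Z hZ => ?_) self_mem_Ici hY hY
  have hZ0 := hX.trans_le (interior_subset hZ)
  rw [(hd Z (interior_subset hZ)).deriv, n_pc_eq hl h hZ0, re_mul_ofReal]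
  refine div_nonpos_of_nonpos_of_nonneg ?_ hZ0.le
  nlinarith [mul_nonneg (neg_nonneg.2 (n_re hl h hZ0)) (sq_nonneg ‖yF ν ℓ Z‖)]

theorem n_upper (hl : 0 ≤ ℓ) (h : 1 / 2 < ν.re) (hX : X ∈ Icc (2 : ℝ) 5) :
    ‖NF ν ℓ X‖ ≤ 12 * √(ℓ ^ 2 + ‖ν‖ + 1) + 12 := by
  have h0 : 0 < ℓ + ν.re := by linarith
  have hX0 : 0 < X := by linarith [hX.1]
  have hS : 1 ≤ ℓ ^ 2 + ‖ν‖ + 1 := by linarith [sq_nonneg ℓ, norm_nonneg ν]
  have hR := Real.sq_sqrt (zero_le_one.trans hS)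
  have hR1 := Real.one_le_sqrt.2 hS
  set R := √(ℓ ^ 2 + ‖ν‖ + 1)
  have hτ0 : 0 < 1 / R := by positivity
  have hτ1 : 1 / R ≤ 1 := (div_le_one (by linarith)).2 hR1
  have hp : ∀ Y ∈ Icc X (X + 1 / R), 0 < Y := fun Y hY => hX0.trans_le hY.1
  have h6 : ∀ Y ∈ Icc X (X + 1 / R), Y ≤ 6 := fun Y hY => by linarith [hX.2, hY.2]
  have hy : ∀ Y ∈ Icc X (X + 1 / R), ‖yF ν ℓ Y‖ ≤ ‖yF ν ℓ X‖ := fun Y hY => n_anti hl h hX0 hY.1
  have hid : ∀ Y : ℝ, HasDerivAt (fun Y : ℝ => (Y : ℂ)) 1 Y := fun Y =>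
    (hasDerivAt_id Y).ofReal_comp
  set q : ℝ → ℂ := fun Y => Lam (yF ν ℓ) Y + I * Y * yF ν ℓ Y with hq
  have h1 := norm_image_sub_le_of_norm_deriv_le_segment' (f := q) (a := X) (b := X + 1 / R)
    (f' := fun Y => (((ℓ ^ 2 / Y : ℝ) : ℂ) - I * ν + I) * yF ν ℓ Y) (C := R ^ 2 * ‖yF ν ℓ X‖)
    (fun Y hY => (((n_dp h0 (hp Y hY)).add (((hid Y).const_mul I).mul
      (n_dy h0 (hp Y hY)))).congr_deriv (by
        have : (Y : ℂ) ≠ 0 := ofReal_ne_zero.2 (hp Y hY).ne'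
        push_cast
        field_simp
        ring)).hasDerivWithinAt) fun Y hY => by
      have hY' := Ico_subset_Icc_self hY
      rw [norm_mul, hR]
      refine mul_le_mul ((norm_add_le _ _).trans (add_le_add ((norm_sub_le _ _).trans
        (add_le_add ?_ (by simp))) (by simp))) (hy Y hY') (norm_nonneg _) (by positivity)
      rw [Complex.norm_of_nonneg (div_nonneg (sq_nonneg _) (hp Y hY').le)]
      exact div_le_self (sq_nonneg _) (by linarith [hX.1, hY.1])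
  have h2 := norm_image_sub_le_of_norm_deriv_le_segment'
    (f := fun Y : ℝ => Y * yF ν ℓ Y - Y * q X) (a := X) (b := X + 1 / R)
    (f' := fun Y => q Y - q X + (1 - I * Y) * yF ν ℓ Y) (C := (R + 7) * ‖yF ν ℓ X‖)
    (fun Y hY => ((((hid Y).mul (n_dy h0 (hp Y hY))).sub ((hid Y).mul_const _)).congr_deriv (by
        have : (Y : ℂ) ≠ 0 := ofReal_ne_zero.2 (hp Y hY).ne'
        simp only [hq]
        field_simp
        ring)).hasDerivWithinAt) (fun Y hY => by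
      have hY' := Ico_subset_Icc_self hY
      rw [add_mul]
      refine (norm_add_le _ _).trans (add_le_add ((h1 Y hY').trans ?_) ?_)
      · refine (mul_le_mul_of_nonneg_left (by linarith [hY'.2] : Y - X ≤ 1 / R)
          (by positivity)).trans_eq ?_
        field_simp
      · rw [norm_mul]
        refine mul_le_mul ((norm_sub_le _ _).trans ?_) (hy Y hY') (norm_nonneg _) (by norm_num)
        simp only [norm_one, norm_mul, norm_I, norm_real, Real.norm_of_nonneg (hp Y hY').le]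
        linarith [h6 Y hY']) _ (right_mem_Icc.2 (by linarith))
  have hm : X + 1 / R ∈ Icc X (X + 1 / R) := right_mem_Icc.2 (by linarith)
  have h3 : ((1 / R : ℝ) : ℂ) * q X = ((X + 1 / R : ℝ) : ℂ) * yF ν ℓ (X + 1 / R) - X * yF ν ℓ X -
      (((X + 1 / R : ℝ) : ℂ) * yF ν ℓ (X + 1 / R) - ((X + 1 / R : ℝ) : ℂ) * q X -
        (X * yF ν ℓ X - X * q X)) := by
    push_cast
    ring
  have h4 := congrArg norm h3
  rw [norm_mul, Complex.norm_of_nonneg hτ0.le] at h4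
  have h5 := h4.trans_le ((norm_sub_le _ _).trans (add_le_add (norm_sub_le _ _) h2))
  rw [norm_mul, norm_mul, Complex.norm_of_nonneg (hp _ hm).le, Complex.norm_of_nonneg hX0.le,
    add_sub_cancel_left] at h5
  have h7 : q X = (NF ν ℓ X + I * X) * yF ν ℓ X := by
    simp only [hq, n_p_eq hl h hX0]
    ring
  have h8 := norm_pos_iff.2 (n_ne hl h hX0)
  have h9 : 1 / R * ‖NF ν ℓ X + I * X‖ ≤ 11 + (R + 7) * (1 / R) := by
    refine le_of_mul_le_mul_right ?_ h8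
    rw [h7, norm_mul] at h5
    nlinarith [mul_le_mul (h6 _ hm) (hy _ hm) (norm_nonneg _) (by norm_num),
      mul_le_mul_of_nonneg_right hX.2 h8.le]
  have h10 := norm_sub_le (NF ν ℓ X + I * X) (I * X)
  rw [add_sub_cancel_right, norm_mul, norm_I, Complex.norm_of_nonneg hX0.le] at h10
  have h11 := mul_le_mul_of_nonneg_left h9 (by linarith : 0 ≤ R)
  rw [← mul_assoc, mul_add, mul_left_comm, mul_one_div_cancel (by linarith)] at h11
  linarith [hX.2]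

end Vale.Agent.P139
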